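import Mathlib

/-! Statement definitions for the free uniform spanning forest as a factor of IID. -/

namespace Vale.Agent.P143

open MeasureTheory ProbabilityTheory Filter Topology BoundedContinuousFunction

universe u

variable {V : Type u}

/-- `T` is the edge set of a spanning tree of the subgraph `H`: its edges are edges of `H`,
it has no cycle, and it connects any two vertices of `H`. -/
def IsSpanningTreeOf {G : SimpleGraph V} (H : G.Subgraph) (T : Set (Sym2 V)) : Prop :=
  T ⊆ H.edgeSet ∧ (SimpleGraph.fromEdgeSet T).IsAcyclic ∧
    ∀ u ∈ H.verts, ∀ v ∈ H.verts, (SimpleGraph.fromEdgeSet T).Reachable u v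

/-- The uniform spanning tree of `H`, as a measure on configurations `E(G) → Bool`. -/
noncomputable def ust {G : SimpleGraph V} (H : G.Subgraph) : Measure (G.edgeSet → Bool) :=
  uniformOn {x | IsSpanningTreeOf H (Subtype.val '' {e | x e = true})}

/-- An increasing sequence of finite connected subgraphs with union `G`. -/
def IsExhaustion {G : SimpleGraph V} (H : ℕ → G.Subgraph) : Prop :=
  (∀ n, (H n).verts.Finite ∧ (H n).Connected) ∧ Monotone H ∧ ⨆ n, H n = ⊤

/-- `μ` is the free uniform spanning forest of `G`: a probability measure on `E(G) → Bool` that is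
the weak limit of the uniform spanning trees along every exhaustion (and exhaustions exist). -/
def IsFUSF (G : SimpleGraph V) (μ : Measure (G.edgeSet → Bool)) : Prop :=
  IsProbabilityMeasure μ ∧ (∃ H : ℕ → G.Subgraph, IsExhaustion H) ∧
    ∀ H : ℕ → G.Subgraph, IsExhaustion H → ∀ f : (G.edgeSet → Bool) →ᵇ ℝ,
      Tendsto (fun n => ∫ x, f x ∂(ust (H n))) atTop (𝓝 (∫ x, f x ∂μ))

/-- The law of an IID family of uniform `[0,1]` labels indexed by `V`. -/
noncomputable def iidUniform (V : Type u) : Measure (V → unitInterval) :=
  Measure.infinitePi (fun _ => (volume : Measure unitInterval))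

/-- Connected locally finite simple graphs on the vertex set `ℕ`. -/
def GoodGraph : Type := {G : SimpleGraph ℕ // G.Connected ∧ ∀ v, (G.neighborSet v).Finite}

/-- The sigma-algebra on graphs generated by the events that `u` and `v` are adjacent. -/
instance : MeasurableSpace GoodGraph :=
  MeasurableSpace.comap (fun G : GoodGraph => G.1.Adj) inferInstance

end Vale.Agent.P143
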