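import Vale.Agent.P143.Trees

/-! Free effective conductance via the Dirichlet principle, and Kirchhoff's formula. -/

namespace Vale.Agent.P143

open SimpleGraph Finset Filter Topology
open scoped Classical

variable {V : Type*}

/-- energy on the finite edge set `F` -/
def en (c : Sym2 V → ℝ) (F : Finset (Sym2 V)) (f : V → ℝ) : ℝ := ∑ e ∈ F, c e * bil f f e

/-- admissible potentials -/
def Adm (e : Sym2 V) : Set (V → ℝ) := {f | (∀ x, 0 ≤ f x ∧ f x ≤ 1) ∧ bil f f e = 1}

/-- effective conductance in the finite edge set `F` -/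
noncomputable def DF (c : Sym2 V → ℝ) (F : Finset (Sym2 V)) (e : Sym2 V) : ℝ :=
  sInf (en c F '' Adm e)

/-- free effective conductance -/
noncomputable def D (G : SimpleGraph V) (c : Sym2 V → ℝ) (e : Sym2 V) : ℝ :=
  ⨆ F : Finset (Sym2 V), if (F : Set (Sym2 V)) ⊆ G.edgeSet then DF c F e else 0

/-- the edge probability of the weighted free spanning forest -/
noncomputable def drift (G : SimpleGraph V) (c : Sym2 V → ℝ) (e : Sym2 V) : ℝ :=
  if e ∈ G.edgeSet then c e / D G c e else 0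

lemma bil_self_nonneg (f : V → ℝ) (e : Sym2 V) : 0 ≤ bil f f e := by
  induction e using Sym2.ind with
  | h x y => exact mul_self_nonneg _

lemma bil_self_le_one {f : V → ℝ} (hf : ∀ x, 0 ≤ f x ∧ f x ≤ 1) (e : Sym2 V) :
    bil f f e ≤ 1 := by
  induction e using Sym2.ind with
  | h x y =>
    simp only [bil_mk]
    have := hf x; have := hf y
    nlinarith

lemma ind_mem_Adm {a b : V} (h : a ≠ b) : (fun x => if x = a then (1 : ℝ) else 0) ∈ Adm s(a, b) := by
  refine ⟨fun x => ?_, ?_⟩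
  · dsimp only; split_ifs <;> norm_num
  · simp [h.symm]

lemma Adm_nonempty {e : Sym2 V} (he : ¬ e.IsDiag) : (Adm e).Nonempty := by
  induction e using Sym2.ind with
  | h a b => exact ⟨_, ind_mem_Adm (by simpa using he)⟩

lemma en_sub_le (c c' : Sym2 V → ℝ) (F : Finset (Sym2 V)) {f : V → ℝ}
    (hf : ∀ x, 0 ≤ f x ∧ f x ≤ 1) : en c F f ≤ en c' F f + ∑ e ∈ F, |c e - c' e| := by
  unfold en
  rw [← sum_add_distrib]
  refine sum_le_sum fun e _ => ?_
  have h1 := bil_self_nonneg f e
  have h2 := bil_self_le_one hf e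
  have h3 := le_abs_self (c e - c' e)
  have h4 := abs_nonneg (c e - c' e)
  nlinarith

lemma bddBelow_en (c : Sym2 V → ℝ) (F : Finset (Sym2 V)) (e : Sym2 V) :
    BddBelow (en c F '' Adm e) := by
  refine ⟨-∑ e ∈ F, |0 - c e|, ?_⟩
  rintro _ ⟨f, hf, rfl⟩
  have := en_sub_le (fun _ => 0) c F hf.1
  have h0 : en (fun _ => 0) F f = 0 := by simp [en]
  linarith

lemma DF_le (c : Sym2 V → ℝ) (F : Finset (Sym2 V)) {e : Sym2 V} {f : V → ℝ} (hf : f ∈ Adm e) :
    DF c F e ≤ en c F f := csInf_le (bddBelow_en c F e) ⟨f, hf, rfl⟩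

lemma le_DF {c : Sym2 V → ℝ} {F : Finset (Sym2 V)} {e : Sym2 V} (he : ¬ e.IsDiag) {r : ℝ}
    (h : ∀ f ∈ Adm e, r ≤ en c F f) : r ≤ DF c F e :=
  le_csInf ((Adm_nonempty he).image _) (by rintro _ ⟨f, hf, rfl⟩; exact h f hf)

lemma DF_sub_le (c c' : Sym2 V → ℝ) (F : Finset (Sym2 V)) (e : Sym2 V) :
    DF c F e ≤ DF c' F e + ∑ e ∈ F, |c e - c' e| := by
  rcases (Adm e).eq_empty_or_nonempty with h | h
  · simp only [DF, h, Set.image_empty, Real.sInf_empty, zero_add]
    exact sum_nonneg fun _ _ => abs_nonneg _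
  · rw [← sub_le_iff_le_add]
    refine le_csInf (h.image _) ?_
    rintro _ ⟨f, hf, rfl⟩
    have := DF_le c F hf
    have := en_sub_le c c' F hf.1
    linarith

lemma continuous_DF (F : Finset (Sym2 V)) (e : Sym2 V) :
    Continuous (fun c : Sym2 V → ℝ => DF c F e) := by
  rw [continuous_iff_continuousAt]
  intro c
  have h1 : Tendsto (fun c' : Sym2 V → ℝ => ∑ e ∈ F, |c e - c' e|) (𝓝 c) (𝓝 0) := by
    have : Continuous (fun c' : Sym2 V → ℝ => ∑ e ∈ F, |c e - c' e|) := by fun_prop
    simpa using this.tendsto c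
  have h2 := (tendsto_const_nhds (x := DF c F e)).sub h1
  have h3 := (tendsto_const_nhds (x := DF c F e)).add h1
  rw [sub_zero] at h2
  rw [add_zero] at h3
  refine tendsto_of_tendsto_of_tendsto_of_le_of_le h2 h3 (fun c' => ?_) (fun c' => ?_)
  · have := DF_sub_le c c' F e
    dsimp only; linarith
  · have := DF_sub_le c' c F e
    simp only [abs_sub_comm (c' _)] at this
    exact this

lemma en_nonneg {c : Sym2 V → ℝ} (hc : ∀ e, 0 ≤ c e) (F : Finset (Sym2 V)) (f : V → ℝ) :
    0 ≤ en c F f := sum_nonneg fun e _ => mul_nonneg (hc e) (bil_self_nonneg f e)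

lemma en_mono {c : Sym2 V → ℝ} (hc : ∀ e, 0 ≤ c e) {F F' : Finset (Sym2 V)} (h : F ⊆ F')
    (f : V → ℝ) : en c F f ≤ en c F' f :=
  sum_le_sum_of_subset_of_nonneg h fun e _ _ => mul_nonneg (hc e) (bil_self_nonneg f e)

lemma en_ratio {c c' : Sym2 V → ℝ} {l : ℝ} {F : Finset (Sym2 V)} (h : ∀ e ∈ F, c e ≤ l * c' e)
    (f : V → ℝ) : en c F f ≤ l * en c' F f := by
  unfold en
  rw [mul_sum]
  refine sum_le_sum fun e he => ?_
  rw [← mul_assoc]
  exact mul_le_mul_of_nonneg_right (h e he) (bil_self_nonneg f e)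

lemma DF_nonneg {c : Sym2 V → ℝ} (hc : ∀ e, 0 ≤ c e) (F : Finset (Sym2 V)) {e : Sym2 V}
    (he : ¬ e.IsDiag) : 0 ≤ DF c F e := le_DF he fun f _ => en_nonneg hc F f

lemma DF_mono {c : Sym2 V → ℝ} (hc : ∀ e, 0 ≤ c e) {F F' : Finset (Sym2 V)} (h : F ⊆ F')
    {e : Sym2 V} (he : ¬ e.IsDiag) : DF c F e ≤ DF c F' e :=
  le_DF he fun f hf => (DF_le c F hf).trans (en_mono hc h f)

lemma DF_ratio {c c' : Sym2 V → ℝ} {l : ℝ} (hl : 0 < l) {F : Finset (Sym2 V)}
    (h : ∀ e ∈ F, c e ≤ l * c' e) {e : Sym2 V} (he : ¬ e.IsDiag) :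
    DF c F e ≤ l * DF c' F e := by
  rw [← div_le_iff₀' hl]
  refine le_DF he fun f hf => ?_
  rw [div_le_iff₀' hl]
  exact (DF_le c F hf).trans (en_ratio h f)

/-- local finiteness -/
def LF (G : SimpleGraph V) : Prop := ∀ v, (G.neighborSet v).Finite

lemma LF.mono {G G' : SimpleGraph V} (h : LF G) (hle : G' ≤ G) : LF G' :=
  fun v => (h v).subset fun _ hw => hle hw

lemma bddAbove_D {G : SimpleGraph V} (hG : LF G) {c : Sym2 V → ℝ} (hc : ∀ e, 0 ≤ c e)
    {e : Sym2 V} (he : ¬ e.IsDiag) : BddAbove (Set.range fun F : Finset (Sym2 V) =>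
      if (F : Set (Sym2 V)) ⊆ G.edgeSet then DF c F e else 0) := by
  induction e using Sym2.ind with
  | h a b =>
    have hab : a ≠ b := by simpa using he
    set A : Finset (Sym2 V) := (hG a).toFinset.image (fun w => s(a, w)) with hA
    refine ⟨∑ e ∈ A, c e, ?_⟩
    rintro _ ⟨F, rfl⟩
    dsimp only
    split_ifs with hF
    · refine (DF_le c F (ind_mem_Adm hab)).trans ?_
      unfold en
      rw [← sum_filter_add_sum_filter_not F (fun e => e ∈ A)]
      have h0 : ∑ e ∈ F.filter (fun e => ¬ e ∈ A), c e * bil (fun x => if x = a then (1 : ℝ) else 0)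
          (fun x => if x = a then (1 : ℝ) else 0) e = 0 := by
        refine sum_eq_zero fun e he => ?_
        obtain ⟨h1, h2⟩ := mem_filter.1 he
        induction e using Sym2.ind with
        | h x y =>
          have hadj : G.Adj x y := hF (by exact_mod_cast h1)
          have hx : x ≠ a := by
            rintro rfl
            exact h2 (mem_image.2 ⟨y, by simpa using hadj, rfl⟩)
          have hy : y ≠ a := by
            rintro rfl
            exact h2 (mem_image.2 ⟨x, by simpa using hadj.symm, Sym2.eq_swap⟩)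
          simp [hx, hy]
      rw [h0, add_zero]
      refine le_trans (sum_le_sum fun e _ => ?_)
        (sum_le_sum_of_subset_of_nonneg (fun e he => (mem_filter.1 he).2) fun e _ _ => hc e)
      exact mul_le_of_le_one_right (hc e) (bil_self_le_one (ind_mem_Adm hab).1 e)
    · exact sum_nonneg fun e _ => hc e

lemma DF_le_D {G : SimpleGraph V} (hG : LF G) {c : Sym2 V → ℝ} (hc : ∀ e, 0 ≤ c e)
    {e : Sym2 V} (he : ¬ e.IsDiag) {F : Finset (Sym2 V)}
    (hF : (F : Set (Sym2 V)) ⊆ G.edgeSet) : DF c F e ≤ D G c e := by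
  have := le_ciSup (bddAbove_D hG hc he) F
  simp only [hF, if_true] at this
  exact this

lemma D_le {G : SimpleGraph V} {c : Sym2 V → ℝ} {e : Sym2 V} {r : ℝ} (hr : 0 ≤ r)
    (h : ∀ F : Finset (Sym2 V), (F : Set (Sym2 V)) ⊆ G.edgeSet → DF c F e ≤ r) :
    D G c e ≤ r := by
  refine ciSup_le fun F => ?_
  split_ifs with hF
  · exact h F hF
  · exact hr

lemma le_D {G : SimpleGraph V} (hG : LF G) {c : Sym2 V → ℝ} (hc : ∀ e, 0 ≤ c e)
    {e : Sym2 V} (he : e ∈ G.edgeSet) : c e ≤ D G c e := by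
  have hd := G.not_isDiag_of_mem_edgeSet he
  refine le_trans ?_ (DF_le_D hG hc hd (F := {e}) (by simpa using he))
  refine le_DF hd fun f hf => ?_
  simp [en, hf.2]

lemma D_ratio {G : SimpleGraph V} (hG : LF G) {c c' : Sym2 V → ℝ}
    (hc' : ∀ e, 0 ≤ c' e) {l : ℝ} (hl : 0 < l)
    (h : ∀ e ∈ G.edgeSet, c e ≤ l * c' e) {e : Sym2 V} (he : e ∈ G.edgeSet) :
    D G c e ≤ l * D G c' e := by
  have hd := G.not_isDiag_of_mem_edgeSet he
  refine D_le (mul_nonneg hl.le ((hc' e).trans (le_D hG hc' he))) fun F hF => ?_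
  refine (DF_ratio hl (fun e he => h e (hF (by exact_mod_cast he))) hd).trans ?_
  exact mul_le_mul_of_nonneg_left (DF_le_D hG hc' hd hF) hl.le

lemma drift_nonneg {G : SimpleGraph V} (hG : LF G) {c : Sym2 V → ℝ} (hc : ∀ e, 0 < c e)
    (e : Sym2 V) : 0 ≤ drift G c e := by
  unfold drift
  split_ifs with he
  · exact div_nonneg (hc e).le ((hc e).le.trans (le_D hG (fun e => (hc e).le) he))
  · exact le_rfl

lemma drift_le_one {G : SimpleGraph V} (hG : LF G) {c : Sym2 V → ℝ} (hc : ∀ e, 0 < c e)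
    (e : Sym2 V) : drift G c e ≤ 1 := by
  unfold drift
  split_ifs with he
  · have := le_D hG (fun e => (hc e).le) he
    exact (div_le_one ((hc e).trans_le this)).2 this
  · exact zero_le_one

lemma drift_sub_le {G : SimpleGraph V} (hG : LF G) {c c' : Sym2 V → ℝ} (hc : ∀ e, 0 < c e)
    (hc' : ∀ e, 0 < c' e) {δ : ℝ} (hδ : 0 ≤ δ)
    (h : ∀ e ∈ G.edgeSet, c e ≤ Real.exp δ * c' e)
    (h' : ∀ e ∈ G.edgeSet, c' e ≤ Real.exp δ * c e) (e : Sym2 V) :
    drift G c e - drift G c' e ≤ 2 * δ := by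
  have h1 := drift_le_one hG hc e
  have h0 := drift_nonneg hG hc e
  unfold drift at *
  split_ifs at * with he
  · have hD := (hc e).trans_le (le_D hG (fun e => (hc e).le) he)
    have hD' := (hc' e).trans_le (le_D hG (fun e => (hc' e).le) he)
    have hr := D_ratio hG (fun e => (hc e).le) (Real.exp_pos δ) h' he
    have hl := Real.exp_pos δ
    have key : c e / D G c e ≤ Real.exp δ * Real.exp δ * (c' e / D G c' e) := by
      rw [div_le_iff₀ hD]
      calc c e ≤ Real.exp δ * c' e := h e he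
        _ = Real.exp δ * (c' e / D G c' e) * D G c' e := by field_simp
        _ ≤ Real.exp δ * (c' e / D G c' e) * (Real.exp δ * D G c e) :=
            mul_le_mul_of_nonneg_left hr (by have := hc' e; positivity)
        _ = _ := by ring
    have h2 : Real.exp (-(2 * δ)) * (c e / D G c e) ≤ c' e / D G c' e := by
      have : Real.exp (-(2 * δ)) * (Real.exp δ * Real.exp δ) = 1 := by
        rw [← Real.exp_add, ← Real.exp_add]; simp [two_mul]
      calc _ ≤ Real.exp (-(2 * δ)) * (Real.exp δ * Real.exp δ * (c' e / D G c' e)) :=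
            mul_le_mul_of_nonneg_left key (Real.exp_pos _).le
        _ = _ := by rw [← mul_assoc, this, one_mul]
    have h3 := Real.add_one_le_exp (-(2 * δ))
    nlinarith
  · linarith

lemma abs_drift_sub_le {G : SimpleGraph V} (hG : LF G) {c c' : Sym2 V → ℝ} (hc : ∀ e, 0 < c e)
    (hc' : ∀ e, 0 < c' e) {δ : ℝ} (hδ : 0 ≤ δ)
    (h : ∀ e ∈ G.edgeSet, c e ≤ Real.exp δ * c' e)
    (h' : ∀ e ∈ G.edgeSet, c' e ≤ Real.exp δ * c e) (e : Sym2 V) :
    |drift G c e - drift G c' e| ≤ 2 * δ := by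
  rw [abs_le]
  have := drift_sub_le hG hc hc' hδ h h' e
  have := drift_sub_le hG hc' hc hδ h' h e
  constructor <;> linarith

lemma drift_congr {G : SimpleGraph V} (hG : LF G) {c c' : Sym2 V → ℝ} (hc : ∀ e, 0 < c e)
    (hc' : ∀ e, 0 < c' e) (h : ∀ e ∈ G.edgeSet, c e = c' e) (e : Sym2 V) :
    drift G c e = drift G c' e := by
  have := abs_drift_sub_le hG hc hc' le_rfl (fun e he => by simp [h e he])
    (fun e he => by simp [h e he]) e
  rw [mul_zero] at this
  exact sub_eq_zero.1 (abs_nonpos_iff.1 this)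

lemma D_finite {G : SimpleGraph V} (hG : LF G) {E : Finset (Sym2 V)}
    (hE : (E : Set (Sym2 V)) = G.edgeSet) {c : Sym2 V → ℝ} (hc : ∀ e, 0 ≤ c e)
    {e : Sym2 V} (he : ¬ e.IsDiag) : D G c e = DF c E e := by
  refine le_antisymm (D_le (DF_nonneg hc E he) fun F hF => DF_mono hc ?_ he)
    (DF_le_D hG hc he hE.le)
  rw [← hE] at hF
  exact_mod_cast hF

lemma wt_pos {c : Sym2 V → ℝ} (hc : ∀ e, 0 < c e) (T : Finset (Sym2 V)) : 0 < wt c T :=
  prod_pos fun e _ => hc e

lemma sum_wt_pos {c : Sym2 V → ℝ} (hc : ∀ e, 0 < c e) (E : Finset (Sym2 V)) :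
    0 < ∑ T ∈ Tr E, wt c T := sum_pos (fun T _ => wt_pos hc T) (Tr_nonempty E)

lemma bil_expand (f g : V → ℝ) (s : ℝ) (e : Sym2 V) :
    bil (fun x => f x - s * g x) (fun x => f x - s * g x) e =
      bil f f e - 2 * s * bil g f e + s ^ 2 * bil g g e := by
  induction e using Sym2.ind with
  | h x y => simp only [bil_mk]; ring

/-- Kirchhoff's formula -/
theorem kirchhoff {E : Finset (Sym2 V)} (hE : ∀ e ∈ E, ¬ e.IsDiag) {c : Sym2 V → ℝ}
    (hc : ∀ e, 0 < c e) {e : Sym2 V} (he : e ∈ E) :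
    c e / DF c E e = (∑ T ∈ Tr E, if e ∈ T then wt c T else 0) / ∑ T ∈ Tr E, wt c T := by
  induction e using Sym2.ind with
  | h a b =>
  have hne : a ≠ b := fun h => hE _ he (by simp [h])
  set Z := ∑ T ∈ Tr E, wt c T with hZ
  have hZ0 : 0 < Z := sum_wt_pos hc E
  set W := ∑ F ∈ E.powerset, if Cut E s(a, b) F then wt c F else 0 with hW
  set v := volt E c a b with hv
  have hva : v a = W := by
    simp only [hv, hW, volt, comp, R.refl, if_true, mul_one]
  have hvb : v b = 0 := by
    simp only [hv, volt]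
    refine sum_eq_zero fun F _ => ?_
    split_ifs with h
    · simp [comp, h.not_R hne]
    · rfl
  have hv0 : ∀ x, 0 ≤ v x ∧ v x ≤ W := by
    intro x
    simp only [hv, hW, volt]
    constructor
    · refine sum_nonneg fun F _ => ?_
      have := wt_pos hc F
      unfold comp
      split_ifs <;> linarith
    · refine sum_le_sum fun F _ => ?_
      have := wt_pos hc F
      unfold comp
      split_ifs <;> linarith
  have hK : ∀ g : V → ℝ, ∑ e ∈ E, c e * bil v g e = Z * (g a - g b) :=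
    kirchhoff_bil hE c he
  have hnum : (∑ T ∈ Tr E, if s(a, b) ∈ T then wt c T else 0) = c s(a, b) * W := by
    have h1 : ∀ T ∈ Tr E, (if s(a, b) ∈ T then wt c T else 0) = if s(a, b) ∈ T then
        (fun F => c s(a, b) * wt c F) (T.erase s(a, b)) else 0 := by
      intro T _
      split_ifs with h
      · simp only [wt]; rw [mul_prod_erase _ _ h]
      · rfl
    rw [sum_congr rfl h1, sum_Tr_mem E s(a, b) (fun F => c s(a, b) * wt c F), hW, mul_sum]
    refine sum_congr rfl fun F _ => ?_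
    split_ifs <;> simp
  have hW0 : 0 < W := by
    rcases ((hv0 a).1.trans (hv0 a).2).lt_or_eq with h | h
    · exact h
    · exfalso
      have hz : ∀ x, v x = 0 := fun x => le_antisymm (h ▸ (hv0 x).2) (hv0 x).1
      have := hK (fun x => if x = a then 1 else 0)
      have h0 : ∑ e ∈ E, c e * bil v (fun x => if x = a then 1 else 0) e = 0 := by
        refine sum_eq_zero fun e _ => ?_
        induction e using Sym2.ind with
        | h x y => simp [hz]
      rw [h0] at this
      simp [hne.symm] at this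
      linarith
  have hsc : ∀ (g : V → ℝ) (e : Sym2 V), bil (fun x => v x / W) g e = bil v g e / W := by
    intro g e
    induction e using Sym2.ind with
    | h x y => simp only [bil_mk]; ring
  have hK' : ∀ g : V → ℝ, ∑ e ∈ E, c e * bil (fun x => v x / W) g e = Z / W * (g a - g b) := by
    intro g
    simp only [hsc, ← mul_div_assoc, ← sum_div, hK]
    ring
  have hen : en c E (fun x => v x / W) = Z / W := by
    unfold en
    rw [hK', hva, hvb]
    field_simp
    ring
  have hDF : DF c E s(a, b) = Z / W := by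
    refine le_antisymm ?_ (le_DF (hE _ he) fun f hf => ?_)
    · rw [← hen]
      refine DF_le c E ⟨fun x => ⟨div_nonneg (hv0 x).1 hW0.le, (div_le_one hW0).2 (hv0 x).2⟩, ?_⟩
      simp only [bil_mk, hva, hvb]
      field_simp
      ring
    · have h1 := en_nonneg (fun e => (hc e).le) E
        (fun x => f x - (f a - f b) * (fun x => v x / W) x)
      have h2 : (f a - f b) * (f a - f b) = 1 := hf.2
      have h3 : en c E (fun x => f x - (f a - f b) * (fun x => v x / W) x) =
          en c E f - 2 * (f a - f b) * (Z / W * (f a - f b)) + (f a - f b) ^ 2 * (Z / W) := by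
        rw [← hK' f, ← hen]
        unfold en
        rw [mul_sum, mul_sum, ← sum_sub_distrib, ← sum_add_distrib]
        refine sum_congr rfl fun e _ => ?_
        rw [bil_expand]
        ring
      rw [h3] at h1
      have h4 : 2 * (f a - f b) * (Z / W * (f a - f b)) = 2 * (Z / W) := by
        linear_combination 2 * (Z / W) * h2
      have h5 : (f a - f b) ^ 2 * (Z / W) = Z / W := by
        linear_combination (Z / W) * h2
      linarith
  rw [hDF, hnum]
  field_simp

theorem drift_finite {G : SimpleGraph V} (hG : LF G) {E : Finset (Sym2 V)}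
    (hE : (E : Set (Sym2 V)) = G.edgeSet) {c : Sym2 V → ℝ} (hc : ∀ e, 0 < c e)
    {e : Sym2 V} (he : e ∈ E) :
    drift G c e = (∑ T ∈ Tr E, if e ∈ T then wt c T else 0) / ∑ T ∈ Tr E, wt c T := by
  have hE' : ∀ e ∈ E, e ∈ G.edgeSet := fun e he => by rw [← hE]; exact_mod_cast he
  have hd : ∀ e ∈ E, ¬ e.IsDiag := fun e he => G.not_isDiag_of_mem_edgeSet (hE' e he)
  rw [drift, if_pos (hE' e he), D_finite hG hE (fun e => (hc e).le) (hd e he), kirchhoff hd hc he]

end Vale.Agent.P143
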