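import Vale.Agent.P143.Dirichlet

/-! Continuity, measurability and invariance of the drift. -/

namespace Vale.Agent.P143

open SimpleGraph Finset Filter Topology
open scoped Classical

variable {V : Type*}

lemma continuous_bil (e : Sym2 V) : Continuous (fun f : V → ℝ => bil f f e) := by
  induction e using Sym2.ind with
  | h x y => simp only [bil_mk]; fun_prop

lemma continuous_en (c : Sym2 V → ℝ) (F : Finset (Sym2 V)) : Continuous (en c F) := by
  unfold en
  exact continuous_finsetSum _ fun e _ => continuous_const.mul (continuous_bil e)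

lemma isClosed_Adm (e : Sym2 V) : IsClosed (Adm e) := by
  have : Adm e = (⋂ x, {f : V → ℝ | 0 ≤ f x} ∩ {f : V → ℝ | f x ≤ 1}) ∩
      {f | bil f f e = 1} := by
    ext f; simp [Adm]
  rw [this]
  refine IsClosed.inter (isClosed_iInter fun x => IsClosed.inter ?_ ?_) ?_
  · exact isClosed_le continuous_const (continuous_apply x)
  · exact isClosed_le (continuous_apply x) continuous_const
  · exact isClosed_eq (continuous_bil e) continuous_const

lemma isCompact_Adm (e : Sym2 V) : IsCompact (Adm e) := by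
  have : IsCompact (Set.pi Set.univ (fun _ : V => Set.Icc (0 : ℝ) 1)) :=
    isCompact_univ_pi fun _ => isCompact_Icc
  exact this.of_isClosed_subset (isClosed_Adm e) fun f hf x _ => hf.1 x

lemma exists_minimax {G : SimpleGraph V} (hG : LF G) {c : Sym2 V → ℝ} (hc : ∀ e, 0 ≤ c e)
    {e : Sym2 V} (he : ¬ e.IsDiag) : ∃ f ∈ Adm e, ∀ F : Finset (Sym2 V),
      (F : Set (Sym2 V)) ⊆ G.edgeSet → en c F f ≤ D G c e := by
  let ι := {F : Finset (Sym2 V) // (F : Set (Sym2 V)) ⊆ G.edgeSet}
  have : Nonempty ι := ⟨⟨∅, by simp⟩⟩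
  let t : ι → Set (V → ℝ) := fun F => Adm e ∩ {f | en c F.1 f ≤ D G c e}
  have hcl : ∀ F, IsClosed (t F) := fun F =>
    (isClosed_Adm e).inter (isClosed_le (continuous_en c F.1) continuous_const)
  have := IsCompact.nonempty_iInter_of_directed_nonempty_isCompact_isClosed t ?_ ?_
    (fun F => (isCompact_Adm e).of_isClosed_subset (hcl F) Set.inter_subset_left) hcl
  · obtain ⟨f, hf⟩ := this
    rw [Set.mem_iInter] at hf
    exact ⟨f, (hf ⟨∅, by simp⟩).1, fun F hF => (hf ⟨F, hF⟩).2⟩
  · intro F F'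
    refine ⟨⟨F.1 ∪ F'.1, by rw [coe_union]; exact Set.union_subset F.2 F'.2⟩, ?_, ?_⟩
    · intro f hf
      exact ⟨hf.1, (en_mono hc subset_union_left f).trans hf.2⟩
    · intro f hf
      exact ⟨hf.1, (en_mono hc subset_union_right f).trans hf.2⟩
  · intro F
    obtain ⟨f, hf, hmin⟩ := (isCompact_Adm e).exists_isMinOn (Adm_nonempty he)
      (continuous_en c F.1).continuousOn
    refine ⟨f, hf, ?_⟩
    exact (le_DF he fun g hg => hmin hg).trans (DF_le_D hG hc he F.2)

lemma tendsto_D {ι : Type*} {l : Filter ι} {G : SimpleGraph V} (hG : LF G)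
    {H : ι → SimpleGraph V} (hH : ∀ i, H i ≤ G)
    (hex : ∀ e ∈ G.edgeSet, ∀ᶠ i in l, e ∈ (H i).edgeSet)
    {c : Sym2 V → ℝ} (hc : ∀ e, 0 ≤ c e) {d : ι → Sym2 V → ℝ} (hd : ∀ i e, 0 ≤ d i e)
    {L : ℝ} (hL0 : 0 ≤ L) (hL : ∀ i e, d i e ≤ L * c e) (hlim : Tendsto d l (𝓝 c))
    {e : Sym2 V} (he : e ∈ G.edgeSet) : Tendsto (fun i => D (H i) (d i) e) l (𝓝 (D G c e)) := by
  have hdiag := G.not_isDiag_of_mem_edgeSet he
  have hD0 : 0 ≤ D G c e := (hc e).trans (le_D hG hc he)
  obtain ⟨f, hf, hmin⟩ := exists_minimax hG hc hdiag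
  rw [Metric.tendsto_nhds]
  intro ε hε
  set η := ε / (2 * (L + 1)) with hη
  have hη0 : 0 < η := by positivity
  have hηε : (L + 1) * η < ε := by
    rw [hη]; field_simp; linarith
  obtain ⟨F0, hF0, hlt⟩ : ∃ F0 : Finset (Sym2 V), (F0 : Set (Sym2 V)) ⊆ G.edgeSet ∧
      D G c e - η < DF c F0 e := by
    obtain ⟨F, hF⟩ := exists_lt_of_lt_ciSup (show D G c e - η < D G c e by linarith)
    split_ifs at hF with h
    · exact ⟨F, h, hF⟩
    · exact ⟨∅, by simp, hF.trans_le (DF_nonneg hc _ hdiag)⟩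
  have h1 : ∀ᶠ i in l, (F0 : Set (Sym2 V)) ⊆ (H i).edgeSet := by
    have := (eventually_all_finset F0).2 fun e' he' => hex e' (hF0 (by exact_mod_cast he'))
    filter_upwards [this] with i hi e' he'
    exact hi e' (by exact_mod_cast he')
  have h2 : ∀ᶠ i in l, D G c e - η < DF (d i) F0 e :=
    (((continuous_DF F0 e).tendsto c).comp hlim).eventually (lt_mem_nhds hlt)
  have h3 : ∀ᶠ i in l, en (d i) F0 f < D G c e + η := by
    have hc' : Continuous (fun c : Sym2 V → ℝ => en c F0 f) := by unfold en; fun_prop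
    exact ((hc'.tendsto c).comp hlim).eventually
      (gt_mem_nhds (lt_of_le_of_lt (hmin F0 hF0) (by linarith)))
  filter_upwards [h1, h2, h3] with i h1 h2 h3
  have hlow : DF (d i) F0 e ≤ D (H i) (d i) e := DF_le_D (hG.mono (hH i)) (hd i) hdiag h1
  have hup : D (H i) (d i) e ≤ D G c e + η + L * η := by
    refine D_le (by positivity) fun F hF => (DF_le _ F hf).trans ?_
    have hFG : (F : Set (Sym2 V)) ⊆ G.edgeSet := hF.trans (edgeSet_mono (hH i))
    have e1 : en (d i) F f ≤ en (d i) F0 f + en (d i) (F \ F0) f := by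
      refine (en_mono (hd i) (F' := F0 ∪ (F \ F0)) ?_ f).trans (le_of_eq ?_)
      · rw [union_sdiff_self_eq_union]; exact subset_union_right
      · unfold en; exact sum_union disjoint_sdiff
    have e2 : en (d i) (F \ F0) f ≤ L * en c (F \ F0) f := en_ratio (fun e _ => hL i e) f
    have e3 : en c (F0 ∪ (F \ F0)) f = en c F0 f + en c (F \ F0) f := by
      unfold en; exact sum_union disjoint_sdiff
    have e4 : en c (F0 ∪ (F \ F0)) f ≤ D G c e := by
      refine hmin _ ?_
      rw [coe_union, coe_sdiff]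
      exact Set.union_subset hF0 (Set.sdiff_subset.trans hFG)
    have e5 := DF_le c F0 hf
    have e6 : en c (F \ F0) f ≤ η := by linarith
    have e7 := mul_le_mul_of_nonneg_left e6 hL0
    linarith
  rw [Real.dist_eq, abs_lt]
  have : 0 ≤ L * η := by positivity
  constructor <;> nlinarith

lemma tendsto_drift {ι : Type*} {l : Filter ι} {G : SimpleGraph V} (hG : LF G)
    {H : ι → SimpleGraph V} (hH : ∀ i, H i ≤ G)
    (hex : ∀ e ∈ G.edgeSet, ∀ᶠ i in l, e ∈ (H i).edgeSet)
    {c : Sym2 V → ℝ} (hc : ∀ e, 0 < c e) {d : ι → Sym2 V → ℝ} (hd : ∀ i e, 0 ≤ d i e)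
    {L : ℝ} (hL0 : 0 ≤ L) (hL : ∀ i e, d i e ≤ L * c e) (hlim : Tendsto d l (𝓝 c))
    (e : Sym2 V) : Tendsto (fun i => drift (H i) (d i) e) l (𝓝 (drift G c e)) := by
  by_cases he : e ∈ G.edgeSet
  · have h1 := tendsto_D hG hH hex (fun e => (hc e).le) hd hL0 hL hlim he
    have h2 : Tendsto (fun i => d i e) l (𝓝 (c e)) := tendsto_pi_nhds.1 hlim e
    have h3 := h2.div h1 ((hc e).trans_le (le_D hG (fun e => (hc e).le) he)).ne'
    rw [drift, if_pos he]
    refine h3.congr' ?_
    filter_upwards [hex e he] with i hi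
    simp [drift, hi]
  · have : ∀ i, drift (H i) (d i) e = 0 := fun i =>
      if_neg fun h => he (edgeSet_mono (hH i) h)
    have h0 : drift G c e = 0 := if_neg he
    simp only [this, h0]
    exact tendsto_const_nhds

/-! ### measurability -/

section meas
variable {Ω : Type*} [MeasurableSpace Ω] [Countable V]

omit [Countable V] in
lemma measurableSet_mem_edgeSet {G : Ω → SimpleGraph V}
    (hG : ∀ u v, MeasurableSet {ω | (G ω).Adj u v}) (e : Sym2 V) :
    MeasurableSet {ω | e ∈ (G ω).edgeSet} := by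
  induction e using Sym2.ind with
  | h x y => simpa using hG x y

lemma measurable_drift {G : Ω → SimpleGraph V}
    (hG : ∀ u v, MeasurableSet {ω | (G ω).Adj u v}) {c : Ω → Sym2 V → ℝ} (hc : Measurable c)
    (e : Sym2 V) : Measurable (fun ω => drift (G ω) (c ω) e) := by
  unfold drift
  refine Measurable.ite (measurableSet_mem_edgeSet hG e) ?_ measurable_const
  refine ((measurable_pi_apply e).comp hc).div ?_
  unfold D
  refine Measurable.iSup fun F => Measurable.ite ?_ ?_ measurable_const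
  · have : {ω | (F : Set (Sym2 V)) ⊆ (G ω).edgeSet} = ⋂ e ∈ F, {ω | e ∈ (G ω).edgeSet} := by
      ext ω; simp [Set.subset_def]
    rw [this]
    exact F.measurableSet_biInter fun e _ => measurableSet_mem_edgeSet hG e
  · exact (continuous_DF F e).measurable.comp hc

end meas

/-! ### invariance -/

section inv
variable {V' : Type*}

lemma bil_map (σ : V → V') (f g : V' → ℝ) (e : Sym2 V) :
    bil f g (e.map σ) = bil (f ∘ σ) (g ∘ σ) e := by
  induction e using Sym2.ind with
  | h x y => rfl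

/-- the bijection of unordered pairs induced by a bijection -/
def symE (σ : V ≃ V') : Sym2 V ≃ Sym2 V' where
  toFun := Sym2.map σ
  invFun := Sym2.map σ.symm
  left_inv e := by
    induction e using Sym2.ind with
    | h x y => simp
  right_inv e := by
    induction e using Sym2.ind with
    | h x y => simp

lemma DF_map (σ : V ≃ V') (c : Sym2 V' → ℝ) (F : Finset (Sym2 V)) (e : Sym2 V) :
    DF c (F.map (symE σ).toEmbedding) (e.map σ) = DF (c ∘ Sym2.map σ) F e := by
  unfold DF
  congr 1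
  have hen : ∀ f : V' → ℝ, en c (F.map (symE σ).toEmbedding) f =
      en (c ∘ Sym2.map σ) F (f ∘ σ) := by
    intro f
    unfold en
    rw [sum_map]
    refine sum_congr rfl fun e _ => ?_
    exact congrArg _ (bil_map σ f f e)
  ext r
  constructor
  · rintro ⟨f, hf, rfl⟩
    refine ⟨f ∘ σ, ⟨fun x => hf.1 _, ?_⟩, (hen f).symm⟩
    rw [← bil_map]; exact hf.2
  · rintro ⟨f, hf, rfl⟩
    have hff : (f ∘ σ.symm) ∘ σ = f := by ext x; simp
    refine ⟨f ∘ σ.symm, ⟨fun x => hf.1 _, ?_⟩, by rw [hen, hff]⟩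
    rw [bil_map, hff]; exact hf.2

lemma mem_edgeSet_map {G : SimpleGraph V} {G' : SimpleGraph V'} (σ : G ≃g G') (e : Sym2 V) :
    e.map σ ∈ G'.edgeSet ↔ e ∈ G.edgeSet := by
  induction e using Sym2.ind with
  | h x y => simp [σ.map_adj_iff]

lemma drift_map {G : SimpleGraph V} {G' : SimpleGraph V'} (σ : G ≃g G') (c : Sym2 V' → ℝ)
    (e : Sym2 V) : drift G' c (e.map σ) = drift G (c ∘ Sym2.map σ) e := by
  unfold drift
  simp only [mem_edgeSet_map]
  split_ifs with he
  · congr 1
    unfold D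
    symm
    refine Equiv.iSup_congr (symE σ.toEquiv).finsetCongr fun F => ?_
    have hiff : (((symE σ.toEquiv).finsetCongr F : Finset (Sym2 V')) : Set (Sym2 V'))
        ⊆ G'.edgeSet ↔ (F : Set (Sym2 V)) ⊆ G.edgeSet := by
      rw [Equiv.finsetCongr_apply, coe_map, Set.image_subset_iff]
      refine forall_congr' fun e => imp_congr_right fun _ => ?_
      exact mem_edgeSet_map σ e
    simp only [hiff]
    split_ifs
    · exact DF_map σ.toEquiv c F e
    · rfl
  · rfl

end inv

end Vale.Agent.P143
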