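import Vale.Agent.P143.Smooth

/-! The Euler scheme: refinement estimate and weak error estimate. -/

namespace Vale.Agent.P143

open MeasureTheory Real Filter Topology Finset

section generic
variable {X : Type*}

/-- Euler scheme with step `1 / N` -/
noncomputable def eul (v : ℝ → (X → ℝ) → X → ℝ) (N : ℕ) (z : X → ℝ) : ℕ → X → ℝ
  | 0 => z
  | k + 1 => eul v N z k + (1 / (N : ℝ)) • v (k / N) (eul v N z k)

lemma eul_succ (v : ℝ → (X → ℝ) → X → ℝ) (N : ℕ) (z : X → ℝ) (k : ℕ) (x : X) :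
    eul v N z (k + 1) x = eul v N z k x + (1 / (N : ℝ)) * v (k / N) (eul v N z k) x := rfl

/-- admissible velocity fields -/
structure Vel (v : ℝ → (X → ℝ) → X → ℝ) : Prop where
  nn : ∀ t y x, 0 ≤ v t y x
  le : ∀ t y x, v t y x ≤ 1
  lip : ∀ t t' y y' ρ, 0 ≤ ρ → (∀ x, |y x - y' x| ≤ ρ) →
    ∀ x, |v t y x - v t' y' x| ≤ 2 * |t - t'| + 4 * ρ

variable {v : ℝ → (X → ℝ) → X → ℝ}

lemma eul_incr (hv : Vel v) (N : ℕ) (z : X → ℝ) (k j : ℕ) (x : X) :
    0 ≤ eul v N z (k + j) x - eul v N z k x ∧ eul v N z (k + j) x - eul v N z k x ≤ j / N := by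
  induction j with
  | zero => simp
  | succ j ih =>
    rw [← add_assoc, eul_succ]
    have h1 := hv.nn (((k + j : ℕ) : ℝ) / N) (eul v N z (k + j)) x
    have h2 := hv.le (((k + j : ℕ) : ℝ) / N) (eul v N z (k + j)) x
    have h3 : (0 : ℝ) ≤ 1 / N := by positivity
    have h4 : (((j + 1 : ℕ) : ℝ)) / N = j / N + 1 / N := by push_cast; ring
    rw [h4]
    constructor <;> nlinarith [ih.1, ih.2]

lemma eul_refine (hv : Vel v) {N M : ℕ} (hN : 0 < N) (hM : 0 < M) (z : X → ℝ) (k : ℕ) (x : X) :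
    |eul v (N * M) z (k * M) x - eul v N z k x| ≤ 3 / (2 * N) * ((1 + 4 / N) ^ k - 1) := by
  have hN' : (0 : ℝ) < N := by exact_mod_cast hN
  have hM' : (0 : ℝ) < M := by exact_mod_cast hM
  induction k generalizing x with
  | zero => simp [eul]
  | succ k ih =>
    set δ : ℝ := 3 / (2 * N) * ((1 + 4 / N) ^ k - 1) with hδ
    have hδ0 : 0 ≤ δ := (abs_nonneg _).trans (ih x)
    have inner : ∀ j ≤ M, |eul v (N * M) z (k * M + j) x - eul v (N * M) z (k * M) x -
        j / (N * M) * v (k / N) (eul v N z k) x| ≤ j / (N * M) * (6 / N + 4 * δ) := by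
      intro j hj
      induction j with
      | zero => simp
      | succ j ihj =>
        have ihj := ihj (by omega)
        have hj' : (j : ℝ) ≤ M := by exact_mod_cast (by omega : j ≤ M)
        have hjN : (j : ℝ) / (N * M) ≤ 1 / N := by
          rw [div_le_div_iff₀ (by positivity) hN']; nlinarith
        have hl := hv.lip (((k * M + j : ℕ) : ℝ) / ((N * M : ℕ) : ℝ)) (k / N)
          (eul v (N * M) z (k * M + j)) (eul v N z k) (δ + 1 / N) (by positivity) (fun x => by
            have h1 := eul_incr hv (N * M) z (k * M) j x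
            have h2 := ih x
            push_cast at h1
            rw [abs_le] at h2 ⊢
            constructor <;> linarith [h1.1, h1.2, h2.1, h2.2]) x
        have ht : |((k * M + j : ℕ) : ℝ) / ((N * M : ℕ) : ℝ) - k / N| ≤ 1 / N := by
          have : ((k * M + j : ℕ) : ℝ) / ((N * M : ℕ) : ℝ) - k / N = j / (N * M) := by
            push_cast; field_simp; ring
          rw [this, abs_of_nonneg (by positivity)]; exact hjN
        rw [← add_assoc, eul_succ]
        set p := v (((k * M + j : ℕ) : ℝ) / ((N * M : ℕ) : ℝ)) (eul v (N * M) z (k * M + j)) x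
        set q := v (k / N) (eul v N z k) x
        have hpq : |p - q| ≤ 6 / N + 4 * δ := by
          have : (6 : ℝ) / N = 6 * (1 / N) := by ring
          linarith
        have e : eul v (N * M) z (k * M + j) x + 1 / ((N * M : ℕ) : ℝ) * p -
            eul v (N * M) z (k * M) x - ((j + 1 : ℕ) : ℝ) / (N * M) * q =
            (eul v (N * M) z (k * M + j) x - eul v (N * M) z (k * M) x - j / (N * M) * q) +
              1 / (N * M) * (p - q) := by push_cast; ring
        rw [e]
        refine (abs_add_le _ _).trans ?_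
        rw [abs_mul, abs_of_nonneg (by positivity : (0 : ℝ) ≤ 1 / (N * M))]
        have := mul_le_mul_of_nonneg_left hpq (by positivity : (0 : ℝ) ≤ 1 / (N * M))
        calc _ ≤ _ := add_le_add ihj this
          _ = _ := by push_cast; ring
    have h1 := inner M le_rfl
    have e1 : (M : ℝ) / (N * M) = 1 / N := by field_simp
    rw [e1] at h1
    have h2 := ih x
    rw [add_mul, one_mul, eul_succ]
    have e2 : (3 : ℝ) / (2 * N) * ((1 + 4 / N) ^ (k + 1) - 1) = δ + 1 / N * (6 / N + 4 * δ) := by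
      rw [hδ, pow_succ]
      generalize (1 + 4 / (N : ℝ)) ^ k = P
      field_simp; ring
    rw [e2]
    rw [abs_le] at h1 h2 ⊢
    constructor <;> linarith [h1.1, h1.2, h2.1, h2.2]

/-- number of steps per unit time used up to time `T` -/
def NT (T : ℕ) : ℕ := 2 * 128 ^ T

lemma NT_pos (T : ℕ) : 0 < NT T := by unfold NT; positivity

/-- approximate flow up to time `T` -/
noncomputable def W (v : ℝ → (X → ℝ) → X → ℝ) (z : X → ℝ) (T : ℕ) : X → ℝ :=
  eul v (NT T) z (T * NT T)

lemma W_refine (hv : Vel v) {M : ℕ} (hM : 0 < M) (z : X → ℝ) (T : ℕ) (x : X) :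
    |eul v (NT T * M) z (T * NT T * M) x - W v z T x| ≤ (1 / 2) ^ T := by
  refine (eul_refine hv (NT_pos T) hM z _ x).trans ?_
  have hN : (0 : ℝ) < NT T := by exact_mod_cast NT_pos T
  have h1 : (1 + 4 / (NT T : ℝ)) ^ (T * NT T) ≤ 64 ^ T := by
    rw [mul_comm, pow_mul]
    refine pow_le_pow_left₀ (by positivity) ?_ T
    calc (1 + 4 / (NT T : ℝ)) ^ NT T ≤ exp (4 / (NT T : ℝ)) ^ NT T :=
          pow_le_pow_left₀ (by positivity) (by linarith [add_one_le_exp (4 / (NT T : ℝ))]) _
      _ = exp 1 ^ 4 := by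
          rw [← exp_nat_mul, ← exp_nat_mul]; congr 1; field_simp; norm_num
      _ ≤ 2.72 ^ 4 := pow_le_pow_left₀ (exp_pos _).le (by linarith [exp_one_lt_d9]) 4
      _ ≤ 64 := by norm_num
  have h2 : (NT T : ℝ) = 2 * (2 ^ T * 64 ^ T) := by
    unfold NT; push_cast; rw [← mul_pow]; norm_num
  calc 3 / (2 * (NT T : ℝ)) * ((1 + 4 / (NT T : ℝ)) ^ (T * NT T) - 1)
      ≤ 3 / (2 * (NT T : ℝ)) * 64 ^ T := mul_le_mul_of_nonneg_left (by linarith) (by positivity)
    _ = 3 / 4 * (1 / 2) ^ T := by rw [h2, one_div, inv_pow]; field_simp; norm_num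
    _ ≤ _ := by have : (0 : ℝ) < (1 / 2) ^ T := by positivity
                linarith

lemma W_incr (hv : Vel v) (z : X → ℝ) (T : ℕ) (x : X) :
    |W v z (T + 1) x - W v z T x - 1 / 2| ≤ 3 / 2 := by
  have h1 := W_refine hv (M := 128) (by norm_num) z T x
  have e1 : NT (T + 1) = NT T * 128 := by unfold NT; ring
  have e2 : (T + 1) * (NT T * 128) = T * NT T * 128 + NT T * 128 := by ring
  have h2 := eul_incr hv (NT T * 128) z (T * NT T * 128) (NT T * 128) x
  have hN : (0 : ℝ) < (NT T * 128 : ℕ) := by have := NT_pos T; positivity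
  rw [div_self hN.ne'] at h2
  have h3 : ((1 : ℝ) / 2) ^ T ≤ 1 := pow_le_one₀ (by norm_num) (by norm_num)
  have e3 : W v z (T + 1) x = eul v (NT T * 128) z (T * NT T * 128 + NT T * 128) x := by
    rw [W, e1, e2]
  rw [e3]
  rw [abs_le] at h1 ⊢
  constructor <;> linarith [h1.1, h1.2, h2.1, h2.2]

end generic

section weak
variable {E : Type*} [Fintype E] {ι : Type*}

/-- product logistic measure -/
noncomputable abbrev piNu (E : Type*) [Fintype E] : Measure (E → ℝ) := Measure.pi fun _ : E => nu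

lemma integrable_bdd {F : (E → ℝ) → ℝ} (hF : Continuous F) {M : ℝ} (hM : ∀ y, ‖F y‖ ≤ M) :
    Integrable F (piNu E) :=
  Integrable.of_bound hF.aestronglyMeasurable M (.of_forall hM)

/-- expectation of `g` at a noisy observation of a uniformly chosen vector -/
noncomputable def avg (S : Finset ι) (ind : ι → E → ℝ) (g : (E → ℝ) → ℝ) (t : ℝ) : ℝ :=
  (∑ s ∈ S, ∫ z, g (z + t • ind s) ∂(piNu E)) / S.card

lemma one_step {S : Finset ι} (hS : S.Nonempty) {ind : ι → E → ℝ} (hind : ∀ s, ‖ind s‖ ≤ 1)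
    {u : (E → ℝ) → E → ℝ} (hu : Continuous u) (hu1 : ∀ y, ‖u y‖ ≤ 1) {t : ℝ}
    (hpost : ∀ y i, ∑ s ∈ S, (∏ j, cnd (t * ind s j) (y j)) * (u y i - ind s i) = 0)
    {M A B : ℝ} {g : (E → ℝ) → ℝ} (hg : C11 M A B g) {h : ℝ} (hh : 0 ≤ h) :
    |avg S ind (fun y => g (y + h • u y)) t - avg S ind g (t + h)| ≤ 2 * B * h ^ 2 := by
  have hcard : (0 : ℝ) < S.card := by exact_mod_cast hS.card_pos
  have hgc := hg.diff.continuous
  set c : ι → (E → ℝ) → ℝ := fun s y => ∏ j, cnd (t * ind s j) (y j) with hc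
  set F : ι → (E → ℝ) → ℝ := fun s y => g (y + h • u y) - g (y + h • ind s) with hF
  have hc0 : ∀ s y, 0 ≤ c s y := fun s y => prod_nonneg fun j _ => (cnd_pos _ _).le
  have hcc : ∀ s, Continuous (c s) := fun s =>
    continuous_finsetProd _ fun j _ => (continuous_cnd _).comp (continuous_apply j)
  have hcb : ∀ s y, ‖c s y‖ ≤ ∏ j, exp |t * ind s j| := fun s y => by
    rw [norm_eq_abs, abs_of_nonneg (hc0 s y)]
    exact prod_le_prod (fun j _ => (cnd_pos _ _).le) fun j _ => cnd_le_exp _ _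
  have hci : ∀ s, Integrable (c s) (piNu E) := fun s => integrable_bdd (hcc s) (hcb s)
  have hc1 : ∀ s, ∫ y, c s y ∂(piNu E) = 1 := fun s => by
    have := integral_shift (fun _ : E → ℝ => (1 : ℝ)) (t • ind s)
    simpa [hc] using this.symm
  have hFc : ∀ s, Continuous (F s) := fun s => by rw [hF]; fun_prop
  have hFb : ∀ s y, ‖F s y‖ ≤ M + M := fun s y => (norm_sub_le _ _).trans
    (add_le_add (hg.bd _) (hg.bd _))
  have hFi : ∀ s, Integrable (fun y => F s y * c s y) (piNu E) := fun s =>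
    integrable_bdd ((hFc s).mul (hcc s)) (M := (M + M) * ∏ j, exp |t * ind s j|) fun y => by
      rw [norm_mul]
      exact mul_le_mul (hFb s y) (hcb s y) (norm_nonneg _) (by have := hg.hM; positivity)
  have key : ∀ s, ∫ z, g (z + t • ind s + h • u (z + t • ind s)) ∂(piNu E) -
      ∫ z, g (z + (t + h) • ind s) ∂(piNu E) = ∫ y, F s y * c s y ∂(piNu E) := fun s => by
    rw [← integral_sub (integrable_bdd (by fun_prop) fun _ => hg.bd _)
      (integrable_bdd (by fun_prop) fun _ => hg.bd _)]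
    have := integral_shift (F s) (t • ind s)
    simp only [Pi.smul_apply, smul_eq_mul] at this
    rw [← this]
    refine integral_congr_ae (.of_forall fun z => ?_)
    simp only [hF, add_smul, add_assoc]
  have hpt : ∀ y, |∑ s ∈ S, F s y * c s y| ≤ ∑ s ∈ S, 2 * B * h ^ 2 * c s y := fun y => by
    have h0 : ∑ s ∈ S, c s y • (u y - ind s) = 0 := by
      ext i
      rw [Finset.sum_apply]
      exact hpost y i
    have h1 : ∑ s ∈ S, fderiv ℝ g y (h • u y - h • ind s) * c s y = 0 := by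
      have : ∀ s ∈ S, fderiv ℝ g y (h • u y - h • ind s) * c s y =
          h * fderiv ℝ g y (c s y • (u y - ind s)) := fun s _ => by
        rw [← smul_sub, map_smul, map_smul, smul_eq_mul, smul_eq_mul]; ring
      rw [sum_congr rfl this, ← mul_sum, ← map_sum, h0, map_zero, mul_zero]
    have h2 : ∑ s ∈ S, F s y * c s y =
        ∑ s ∈ S, (F s y - fderiv ℝ g y (h • u y - h • ind s)) * c s y := by
      simp only [sub_mul, sum_sub_distrib, h1, sub_zero]
    rw [h2]
    refine (abs_sum_le_sum_abs _ _).trans (sum_le_sum fun s _ => ?_)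
    rw [abs_mul, abs_of_nonneg (hc0 s y)]
    refine mul_le_mul_of_nonneg_right ?_ (hc0 s y)
    have t1 := hg.taylor y (h • u y)
    have t2 := hg.taylor y (h • ind s)
    have n1 : ∀ w : E → ℝ, ‖w‖ ≤ 1 → B * ‖h • w‖ ^ 2 ≤ B * h ^ 2 := fun w hw => by
      refine mul_le_mul_of_nonneg_left (pow_le_pow_left₀ (norm_nonneg _) ?_ 2) hg.hB
      rw [norm_smul, norm_eq_abs, abs_of_nonneg hh]
      exact mul_le_of_le_one_right hh hw
    have n2 := n1 _ (hu1 y)
    have n3 := n1 _ (hind s)
    rw [norm_eq_abs, abs_le] at t1 t2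
    rw [map_sub, abs_le]
    simp only [hF]
    constructor <;> linarith [t1.1, t1.2, t2.1, t2.2]
  unfold avg
  rw [← sub_div, ← sum_sub_distrib, sum_congr rfl fun s _ => key s, abs_div,
    abs_of_pos hcard, div_le_iff₀ hcard, ← integral_finsetSum _ fun s _ => hFi s]
  refine abs_integral_le_integral_abs.trans ?_
  refine (integral_mono (integrable_finsetSum _ fun s _ => hFi s).abs
    (integrable_finsetSum _ fun s _ => (hci s).const_mul _) hpt).trans (le_of_eq ?_)
  rw [integral_finsetSum _ fun s _ => (hci s).const_mul _]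
  simp only [integral_const_mul, hc1, mul_one, sum_const, nsmul_eq_mul]
  ring

lemma continuous_eul {v : ℝ → (E → ℝ) → E → ℝ} (N k : ℕ)
    (hv : ∀ j < k, Continuous (v (j / N))) : Continuous (fun z => eul v N z k) := by
  induction k with
  | zero => exact continuous_id
  | succ k ih =>
    have h1 := ih fun j hj => hv j (by omega)
    have h2 := hv k (by omega)
    exact h1.add ((h2.comp h1).const_smul (1 / (N : ℝ)))

lemma weak_error {S : Finset ι} (hS : S.Nonempty) {ind : ι → E → ℝ} (hind : ∀ s, ‖ind s‖ ≤ 1)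
    {v : ℝ → (E → ℝ) → E → ℝ} (hv1 : ∀ t y, ‖v t y‖ ≤ 1)
    (hpost : ∀ t y i, ∑ s ∈ S, (∏ j, cnd (t * ind s j) (y j)) * (v t y i - ind s i) = 0)
    {M' L L2 : ℝ} (hL : 0 ≤ L) (hL2 : 0 ≤ L2) (N : ℕ) (k : ℕ)
    (hv : ∀ j < k, C11 M' L L2 (v (j / N)))
    {M A B : ℝ} {g : (E → ℝ) → ℝ} (hg : C11 M A B g) :
    |∫ z, g (eul v N z k) ∂(piNu E) - avg S ind g (k / N)| ≤
      2 * k * (1 / N) ^ 2 * (B + A * L2 * (k * (1 / N))) * (1 + 1 / N * L) ^ (2 * k) := by
  have hcard : (0 : ℝ) < S.card := by exact_mod_cast hS.card_pos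
  induction k generalizing A B g with
  | zero =>
    simp only [eul, avg, Nat.cast_zero, zero_div, zero_smul, add_zero, sum_const, nsmul_eq_mul]
    rw [mul_div_cancel_left₀ _ hcard.ne']
    simp
  | succ k ih =>
    set h : ℝ := 1 / N with hh
    have hh0 : 0 ≤ h := by positivity
    have hvk := hv k (by omega)
    have h1 := ih (fun j hj => hv j (by omega)) (hg.step hvk hh0)
    have h2 := one_step hS hind hvk.diff.continuous (hv1 _) (hpost (k / N)) hg hh0
    have e1 : ((k + 1 : ℕ) : ℝ) / N = k / N + h := by rw [hh]; push_cast; ring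
    rw [e1]
    have e2 : ∀ z, g (eul v N z (k + 1)) =
        g (eul v N z k + h • v (k / N) (eul v N z k)) := fun z => rfl
    simp only [e2]
    refine (abs_sub_le _ _ _).trans ((add_le_add h1 h2).trans ?_)
    have hA := hg.hA
    have hB := hg.hB
    set q : ℝ := 1 + h * L with hq
    have hq1 : 1 ≤ q := by rw [hq]; have := mul_nonneg hh0 hL; linarith
    have hq2 : 1 ≤ q ^ 2 := one_le_pow₀ hq1
    have hq3 : q ≤ q ^ 2 := by nlinarith
    have hp : 1 ≤ q ^ (2 * k) := one_le_pow₀ hq1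
    have e3 : q ^ (2 * (k + 1)) = q ^ 2 * q ^ (2 * k) := by ring
    rw [e3]
    push_cast
    set P := q ^ (2 * k)
    have hk : (0 : ℝ) ≤ k := Nat.cast_nonneg k
    set C := (B + A * L2 * ((k + 1) * h)) * q ^ 2 with hC
    have c1 : B * q ^ 2 + A * h * L2 + A * q * L2 * (k * h) ≤ C := by
      have a1 : A * h * L2 ≤ A * h * L2 * q ^ 2 := le_mul_of_one_le_right (by positivity) hq2
      have a2 : A * L2 * (k * h) * q ≤ A * L2 * (k * h) * q ^ 2 :=
        mul_le_mul_of_nonneg_left hq3 (by positivity)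
      rw [hC]; nlinarith
    have c2 : B ≤ C * P := by
      have a1 : B ≤ B + A * L2 * ((k + 1) * h) := le_add_of_nonneg_right (by positivity)
      have a2 : B + A * L2 * ((k + 1) * h) ≤ C := le_mul_of_one_le_right (by positivity) hq2
      have a3 : C ≤ C * P := le_mul_of_one_le_right (by linarith) hp
      linarith
    have c3 : 2 * k * h ^ 2 * (B * q ^ 2 + A * h * L2 + A * q * L2 * (k * h)) * P ≤
        2 * k * h ^ 2 * C * P :=
      mul_le_mul_of_nonneg_right (mul_le_mul_of_nonneg_left c1 (by positivity)) (by linarith)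
    have c4 : 2 * h ^ 2 * B ≤ 2 * h ^ 2 * (C * P) := mul_le_mul_of_nonneg_left c2 (by positivity)
    calc _ ≤ 2 * k * h ^ 2 * C * P + 2 * h ^ 2 * (C * P) := by linarith
      _ = _ := by rw [hC]; ring

/-- the approximate flow at time `T` has almost the law of the noisy observation -/
theorem law_approx {S : Finset ι} (hS : S.Nonempty) {ind : ι → E → ℝ} (hind : ∀ s, ‖ind s‖ ≤ 1)
    {v : ℝ → (E → ℝ) → E → ℝ} (hv : Vel v)
    (hpost : ∀ t y i, ∑ s ∈ S, (∏ j, cnd (t * ind s j) (y j)) * (v t y i - ind s i) = 0)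
    (T : ℕ) (hn : Nice (fun t : Set.Icc (0 : ℝ) T => v t))
    {M A B : ℝ} {g : (E → ℝ) → ℝ} (hg : C11 M A B g) {A0 : ℝ}
    (hlip : ∀ y y' ρ, (∀ x, |y x - y' x| ≤ ρ) → |g y - g y'| ≤ A0 * ρ) :
    |∫ z, g (W v z T) ∂(piNu E) - avg S ind g T| ≤ A0 * (1 / 2) ^ T := by
  obtain ⟨M', L, L2, -, hL, hL2, hn⟩ := hn
  have hv1 : ∀ t y, ‖v t y‖ ≤ 1 := fun t y => (pi_norm_le_iff_of_nonneg zero_le_one).2 fun i => by
    rw [norm_eq_abs, abs_of_nonneg (hv.nn _ _ _)]; exact hv.le _ _ _
  have hgc := hg.diff.continuous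
  have hC : ∀ N : ℕ, 0 < N → ∀ j < T * N, C11 M' L L2 (v (j / N)) := fun N hN j hj => by
    have hN' : (0 : ℝ) < N := by exact_mod_cast hN
    refine hn ⟨j / N, by positivity, ?_⟩
    rw [div_le_iff₀ hN']
    exact_mod_cast hj.le
  set C : ℝ := 2 * T * (B + A * L2 * T) * exp (2 * T * L) with hCdef
  have hA := hg.hA
  have hB := hg.hB
  have hC0 : 0 ≤ C := by positivity
  have bound : ∀ m : ℕ, 0 < m → |∫ z, g (W v z T) ∂(piNu E) - avg S ind g T| ≤
      A0 * (1 / 2) ^ T + C / m := fun m hm => by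
    set N := NT T * m with hNdef
    have hN : 0 < N := Nat.mul_pos (NT_pos T) hm
    have hN' : (0 : ℝ) < N := by exact_mod_cast hN
    have h1 := weak_error hS hind hv1 hpost hL hL2 N (T * N) (hC N hN) hg
    have e1 : ((T * N : ℕ) : ℝ) / N = T := by push_cast; field_simp
    have e2 : ((T * N : ℕ) : ℝ) * (1 / N) = T := by push_cast; field_simp
    rw [e1, e2] at h1
    have h2 : (1 + 1 / (N : ℝ) * L) ^ (2 * (T * N)) ≤ exp (2 * T * L) := by
      calc _ ≤ exp (1 / (N : ℝ) * L) ^ (2 * (T * N)) :=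
            pow_le_pow_left₀ (by positivity) (by linarith [add_one_le_exp (1 / (N : ℝ) * L)]) _
        _ = _ := by rw [← exp_nat_mul]; congr 1; push_cast; field_simp
    have h3 : 2 * ((T * N : ℕ) : ℝ) * (1 / N) ^ 2 * (B + A * L2 * T) *
        (1 + 1 / (N : ℝ) * L) ^ (2 * (T * N)) ≤ C / m := by
      have hm' : (0 : ℝ) < m := by exact_mod_cast hm
      have hmN : (m : ℝ) ≤ N := by
        exact_mod_cast (Nat.le_mul_of_pos_left m (NT_pos T) : m ≤ NT T * m)
      calc _ ≤ 2 * ((T * N : ℕ) : ℝ) * (1 / N) ^ 2 * (B + A * L2 * T) * exp (2 * T * L) :=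
            mul_le_mul_of_nonneg_left h2 (by positivity)
        _ = C / N := by rw [hCdef]; push_cast; field_simp
        _ ≤ C / m := div_le_div_of_nonneg_left hC0 hm' hmN
    have c1 : Continuous (fun z => eul v N z (T * N)) :=
      continuous_eul N _ fun j hj => (hC N hN j hj).diff.continuous
    have c2 : Continuous (fun z => W v z T) :=
      continuous_eul _ _ fun j hj => (hC _ (NT_pos T) j hj).diff.continuous
    have h4 : |∫ z, g (W v z T) ∂(piNu E) - ∫ z, g (eul v N z (T * N)) ∂(piNu E)| ≤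
        A0 * (1 / 2) ^ T := by
      rw [← integral_sub (integrable_bdd (F := fun z => g (W v z T)) (hgc.comp c2) fun _ => hg.bd _)
        (integrable_bdd (F := fun z => g (eul v N z (T * N))) (hgc.comp c1) fun _ => hg.bd _)]
      have := norm_integral_le_of_norm_le_const (μ := piNu E)
        (f := fun z => g (W v z T) - g (eul v N z (T * N))) (C := A0 * (1 / 2) ^ T)
        (.of_forall fun z => hlip _ _ _ fun x => by
          rw [abs_sub_comm, hNdef, ← mul_assoc]; exact W_refine hv hm z T x)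
      simpa using this
    exact (abs_sub_le _ _ _).trans (add_le_add h4 (h1.trans h3))
  have hlim : Tendsto (fun m : ℕ => A0 * (1 / 2 : ℝ) ^ T + C / m) atTop
      (𝓝 (A0 * (1 / 2) ^ T + 0)) :=
    tendsto_const_nhds.add (tendsto_const_div_atTop_nhds_zero_nat C)
  rw [add_zero] at hlim
  exact ge_of_tendsto hlim ((eventually_gt_atTop 0).mono bound)

end weak

end Vale.Agent.P143
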