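import Vale.Agent.P143.Euler
import Vale.Agent.P143.Drift

/-! The approximate flow on a graph. -/

namespace Vale.Agent.P143

open MeasureTheory Real Filter Topology Finset SimpleGraph
open scoped Classical

variable {V : Type*}

/-- the velocity field of a graph -/
noncomputable def vG (G : SimpleGraph V) (t : ℝ) (y : Sym2 V → ℝ) : Sym2 V → ℝ :=
  drift G (fun e => cnd t (y e))

lemma vel_vG {G : SimpleGraph V} (hG : LF G) : Vel (vG G) := by
  refine ⟨fun t y x => drift_nonneg hG (fun _ => cnd_pos _ _) x,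
    fun t y x => drift_le_one hG (fun _ => cnd_pos _ _) x, fun t t' y y' ρ hρ h x => ?_⟩
  have := abs_drift_sub_le hG (c := fun e => cnd t (y e)) (c' := fun e => cnd t' (y' e))
    (fun _ => cnd_pos _ _) (fun _ => cnd_pos _ _) (δ := |t - t'| + 2 * ρ) (by positivity)
    (fun e _ => cnd_le (h e)) (fun e _ => by
      rw [abs_sub_comm]; exact cnd_le (by rw [abs_sub_comm]; exact h e)) x
  calc _ ≤ _ := this
    _ = _ := by ring

lemma tendsto_eul {ι : Type*} {l : Filter ι} {G : SimpleGraph V} (hG : LF G)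
    {H : ι → SimpleGraph V} (hH : ∀ i, H i ≤ G)
    (hex : ∀ e ∈ G.edgeSet, ∀ᶠ i in l, e ∈ (H i).edgeSet) (N : ℕ) (z : Sym2 V → ℝ) (k : ℕ) :
    Tendsto (fun i => eul (vG (H i)) N z k) l (𝓝 (eul (vG G) N z k)) := by
  induction k with
  | zero => exact tendsto_const_nhds
  | succ k ih =>
    refine ih.add (Tendsto.const_smul ?_ (1 / (N : ℝ)))
    refine tendsto_pi_nhds.2 fun e => ?_
    refine tendsto_drift hG hH hex (fun _ => cnd_pos _ _) (fun _ _ => (cnd_pos _ _).le)
      (L := exp |(k : ℝ) / N| * exp |(k : ℝ) / N|) (by positivity)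
      (fun _ _ => cnd_le_mul _ _ _) (tendsto_pi_nhds.2 fun e => ?_) e
    exact ((continuous_cnd _).tendsto _).comp (tendsto_pi_nhds.1 ih e)

lemma measurable_eul {Ω : Type*} [MeasurableSpace Ω] [Countable V] {G : Ω → SimpleGraph V}
    (hG : ∀ u v, MeasurableSet {ω | (G ω).Adj u v}) {z : Ω → Sym2 V → ℝ} (hz : Measurable z)
    (N k : ℕ) : Measurable (fun ω => eul (vG (G ω)) N (z ω) k) := by
  induction k with
  | zero => exact hz
  | succ k ih =>
    refine measurable_pi_lambda _ fun e => ?_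
    simp only [eul_succ]
    refine ((measurable_pi_apply e).comp ih).add (Measurable.const_mul ?_ _)
    refine measurable_drift hG (measurable_pi_lambda _ fun e => ?_) e
    exact (continuous_cnd _).measurable.comp ((measurable_pi_apply e).comp ih)

lemma eul_map {V' : Type*} {G : SimpleGraph V} {G' : SimpleGraph V'} (σ : G ≃g G')
    (N : ℕ) (z : Sym2 V' → ℝ) (k : ℕ) :
    eul (vG G') N z k ∘ Sym2.map σ = eul (vG G) N (z ∘ Sym2.map σ) k := by
  induction k with
  | zero => rfl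
  | succ k ih =>
    ext e
    simp only [Function.comp_apply, eul_succ, ← ih, vG]
    rw [drift_map]
    rfl

/-! ### finite graphs -/

/-- extension by zero -/
noncomputable def ext0 (E : Finset (Sym2 V)) (y : E → ℝ) : Sym2 V → ℝ :=
  fun e => if h : e ∈ E then y ⟨e, h⟩ else 0

lemma ext0_coe (E : Finset (Sym2 V)) (y : E → ℝ) (e : E) : ext0 E y e = y e := by
  simp [ext0]

/-- extension by zero, one coordinate, as a linear map -/
noncomputable def extL (E : Finset (Sym2 V)) (e : Sym2 V) : (E → ℝ) →L[ℝ] ℝ :=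
  if h : e ∈ E then ContinuousLinearMap.proj (R := ℝ) (φ := fun _ : E => ℝ) ⟨e, h⟩ else 0

lemma extL_apply (E : Finset (Sym2 V)) (e : Sym2 V) (y : E → ℝ) : extL E e y = ext0 E y e := by
  unfold extL ext0
  split_ifs <;> simp

/-- velocity field in finitely many coordinates -/
noncomputable def vF (G : SimpleGraph V) (E : Finset (Sym2 V)) (t : ℝ) (y : E → ℝ) : E → ℝ :=
  fun e => vG G t (ext0 E y) e

lemma vel_vF {G : SimpleGraph V} (hG : LF G) (E : Finset (Sym2 V)) : Vel (vF G E) := by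
  refine ⟨fun t y x => (vel_vG hG).nn _ _ _, fun t y x => (vel_vG hG).le _ _ _,
    fun t t' y y' ρ hρ h x => (vel_vG hG).lip _ _ _ _ ρ hρ (fun e => ?_) _⟩
  unfold ext0
  split_ifs
  · exact h _
  · simpa using hρ

lemma eul_res {G : SimpleGraph V} (hG : LF G) {E : Finset (Sym2 V)}
    (hE : (E : Set (Sym2 V)) = G.edgeSet) (N : ℕ) (z : Sym2 V → ℝ) (k : ℕ) (e : E) :
    eul (vG G) N z k e = eul (vF G E) N (fun e => z e) k e := by
  induction k generalizing e with
  | zero => rfl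
  | succ k ih =>
    rw [eul_succ, eul_succ, ih]
    congr 2
    refine drift_congr hG (fun _ => cnd_pos _ _) (fun _ => cnd_pos _ _) (fun f hf => ?_) _
    have hf' : f ∈ E := by rw [← hE] at hf; exact_mod_cast hf
    rw [ih ⟨f, hf'⟩, ext0_coe E _ ⟨f, hf'⟩]

/-- indicator vector of an edge set -/
noncomputable def indv (E : Finset (Sym2 V)) (T : Finset (Sym2 V)) : E → ℝ :=
  fun e => if e.1 ∈ T then 1 else 0

lemma prod_coe_ite {E K : Finset (Sym2 V)} (hK : K ⊆ E) (F : Sym2 V → ℝ) :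
    ∏ j : E, (if j.1 ∈ K then F j else 1) = ∏ e ∈ K, F e := by
  rw [prod_coe_sort E (fun e => if e ∈ K then F e else 1), prod_ite_mem, inter_eq_right.2 hK]

lemma vF_eq {G : SimpleGraph V} (hG : LF G) {E : Finset (Sym2 V)}
    (hE : (E : Set (Sym2 V)) = G.edgeSet) (t : ℝ) (y : E → ℝ) (i : E) :
    vF G E t y i = (∑ T ∈ Tr E, if i.1 ∈ T then wt (fun e => cnd t (ext0 E y e)) T else 0) *
      (∑ T ∈ Tr E, wt (fun e => cnd t (ext0 E y e)) T)⁻¹ :=
  drift_finite hG hE (fun _ => cnd_pos _ _) i.2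

lemma vF_post {G : SimpleGraph V} (hG : LF G) {E : Finset (Sym2 V)}
    (hE : (E : Set (Sym2 V)) = G.edgeSet) (t : ℝ) (y : E → ℝ) (i : E) :
    ∑ s ∈ Tr E, (∏ j, cnd (t * indv E s j) (y j)) * (vF G E t y i - indv E s i) = 0 := by
  have h1 : ∀ s ∈ Tr E, ∏ j, cnd (t * indv E s j) (y j) =
      wt (fun e => cnd t (ext0 E y e)) s := by
    intro s hs
    rw [wt, ← prod_coe_ite (mem_Tr.1 hs).1]
    refine prod_congr rfl fun j _ => ?_
    unfold indv
    split_ifs <;> simp [cnd_zero, ext0_coe]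
  have h2 : ∀ s ∈ Tr E, (∏ j, cnd (t * indv E s j) (y j)) * (vF G E t y i - indv E s i) =
      wt (fun e => cnd t (ext0 E y e)) s * vF G E t y i -
        if i.1 ∈ s then wt (fun e => cnd t (ext0 E y e)) s else 0 := by
    intro s hs
    rw [h1 s hs]
    unfold indv
    split_ifs <;> ring
  rw [sum_congr rfl h2, sum_sub_distrib, ← sum_mul, vF_eq hG hE]
  have := (sum_wt_pos (c := fun e => cnd t (ext0 E y e)) (fun _ => cnd_pos _ _) E).ne'
  field_simp
  ring

lemma nice_vF {G : SimpleGraph V} (hG : LF G) {E : Finset (Sym2 V)}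
    (hE : (E : Set (Sym2 V)) = G.edgeSet) (T : ℝ) :
    Nice (fun t : Set.Icc (0 : ℝ) T => vF G E t) := by
  refine Nice.pi fun i => ?_
  have hw : ∀ S : Finset (Sym2 V), Nice (fun (t : Set.Icc (0 : ℝ) T) (y : E → ℝ) =>
      wt (fun e => cnd t (ext0 E y e)) S) := fun S => by
    unfold wt
    refine Nice.prod S (g := fun e (t : Set.Icc (0 : ℝ) T) (y : E → ℝ) => cnd t (ext0 E y e))
      fun e _ => ?_
    simpa only [extL_apply] using (nice_cnd T).comp_clm (extL E e)
  simp only [vF_eq hG hE]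
  obtain ⟨S0, hS0⟩ := Tr_nonempty E
  refine Nice.mul ?_ (Nice.inv (Nice.sum _ fun S _ => hw S) (ε := ∏ _e ∈ S0, exp (-T))
    (prod_pos fun _ _ => exp_pos _) fun t y => ?_)
  · refine Nice.sum (Tr E) (g := fun S (t : Set.Icc (0 : ℝ) T) (y : E → ℝ) =>
      if i.1 ∈ S then wt (fun e => cnd t (ext0 E y e)) S else 0) fun S _ => ?_
    by_cases h : i.1 ∈ S
    · simpa only [h, if_true] using hw S
    · simpa only [h, if_false] using
        Nice.const (X := E → ℝ) (a := fun _ : Set.Icc (0 : ℝ) T => (0 : ℝ)) (M := 0) (by simp)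
  · refine le_trans ?_ (single_le_sum (f := fun S => wt (fun e => cnd t (ext0 E y e)) S)
      (fun S _ => (wt_pos (fun _ => cnd_pos _ _) S).le) hS0)
    refine prod_le_prod (fun _ _ => (exp_pos _).le) fun e _ => ?_
    have h2 := cnd_le (t := 0) (t' := t) (y := ext0 E y e) (y' := ext0 E y e) (ρ := 0) (by simp)
    simp only [cnd_zero, zero_sub, abs_neg, mul_zero, add_zero] at h2
    rw [abs_of_nonneg t.2.1] at h2
    have h3 : exp (t : ℝ) ≤ exp T := exp_le_exp.2 t.2.2
    have h4 := cnd_pos t (ext0 E y e)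
    rw [exp_neg, inv_le_iff_one_le_mul₀' (exp_pos _)]
    nlinarith

/-- one dimensional test functions -/
structure Tst (ψ : ℝ → ℝ) : Prop where
  nice : Nice (fun _ : Unit => ψ)
  nn : ∀ u, 0 ≤ ψ u
  le : ∀ u, ψ u ≤ 1
  lip : ∀ u v, |ψ u - ψ v| ≤ |u - v|

lemma Tst.continuous {ψ : ℝ → ℝ} (h : Tst ψ) : Continuous ψ := by
  obtain ⟨_, _, _, _, _, _, h⟩ := h.nice
  exact (h ()).diff.continuous

lemma abs_prod_sub_prod_le {ι : Type*} (K : Finset ι) {a b : ι → ℝ}
    (ha : ∀ i ∈ K, 0 ≤ a i ∧ a i ≤ 1) (hb : ∀ i ∈ K, 0 ≤ b i ∧ b i ≤ 1) :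
    |∏ i ∈ K, a i - ∏ i ∈ K, b i| ≤ ∑ i ∈ K, |a i - b i| := by
  induction K using Finset.induction_on with
  | empty => simp
  | insert j K hj ih =>
    rw [prod_insert hj, prod_insert hj, sum_insert hj]
    have ih := ih (fun i hi => ha i (mem_insert_of_mem hi)) fun i hi => hb i (mem_insert_of_mem hi)
    have h1 := ha j (mem_insert_self _ _)
    have h2 : 0 ≤ ∏ i ∈ K, b i := prod_nonneg fun i hi => (hb i (mem_insert_of_mem hi)).1
    have h3 : ∏ i ∈ K, b i ≤ 1 := prod_le_one (fun i hi => (hb i (mem_insert_of_mem hi)).1)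
      fun i hi => (hb i (mem_insert_of_mem hi)).2
    have e : a j * ∏ i ∈ K, a i - b j * ∏ i ∈ K, b i =
        (a j - b j) * ∏ i ∈ K, b i + a j * (∏ i ∈ K, a i - ∏ i ∈ K, b i) := by ring
    rw [e]
    refine (abs_add_le _ _).trans (add_le_add ?_ ?_)
    · rw [abs_mul, abs_of_nonneg h2]
      exact mul_le_of_le_one_right (abs_nonneg _) h3
    · rw [abs_mul, abs_of_nonneg h1.1]
      exact (mul_le_of_le_one_left (abs_nonneg _) h1.2).trans ih

theorem fin_approx {G : SimpleGraph V} (hG : LF G) {E : Finset (Sym2 V)}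
    (hE : (E : Set (Sym2 V)) = G.edgeSet) {K : Finset (Sym2 V)} (hK : K ⊆ E)
    {ψ : Sym2 V → ℝ → ℝ} (hψ : ∀ e, Tst (ψ e)) {Ω : Type*} [MeasurableSpace Ω] {P : Measure Ω}
    {Z : Ω → Sym2 V → ℝ} (hZ : Measurable Z)
    (hlaw : P.map (fun ω (e : E) => Z ω e) = piNu E) (T : ℕ) :
    |∫ ω, ∏ e ∈ K, ψ e (W (vG G) (Z ω) T e) ∂P -
      (∑ S ∈ Tr E, ∏ e ∈ K, ∫ z, ψ e (z + T * if e ∈ S then 1 else 0) ∂nu) / (Tr E).card| ≤
      K.card * (1 / 2) ^ T := by
  set g : (E → ℝ) → ℝ := fun y => ∏ e ∈ K, ψ e (ext0 E y e) with hg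
  have hn : Nice (fun _ : Unit => g) := by
    refine Nice.prod K (g := fun e (_ : Unit) (y : E → ℝ) => ψ e (ext0 E y e)) fun e _ => ?_
    simpa only [extL_apply] using (hψ e).nice.comp_clm (extL E e)
  obtain ⟨M, A, B, -, -, -, hn⟩ := hn
  have hind : ∀ s, ‖indv E s‖ ≤ 1 := fun s =>
    (pi_norm_le_iff_of_nonneg zero_le_one).2 fun i => by
      unfold indv; split_ifs <;> simp
  have key := law_approx (Tr_nonempty E) hind (vel_vF hG E) (vF_post hG hE) T (nice_vF hG hE T)
    (hn ()) (A0 := K.card) fun y y' ρ h => by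
      refine (abs_prod_sub_prod_le K (fun e _ => ⟨(hψ e).nn _, (hψ e).le _⟩)
        (fun e _ => ⟨(hψ e).nn _, (hψ e).le _⟩)).trans ?_
      rw [← nsmul_eq_mul]
      refine sum_le_card_nsmul _ _ _ fun e he => ((hψ e).lip _ _).trans ?_
      rw [ext0_coe E y ⟨e, hK he⟩, ext0_coe E y' ⟨e, hK he⟩]
      exact h _
  have hmr : Measurable (fun ω (e : E) => Z ω e) :=
    measurable_pi_lambda _ fun e => (measurable_pi_apply _).comp hZ
  have hcW : Continuous (fun z => W (vF G E) z T) := by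
    obtain ⟨M', L, L2, -, -, -, hv⟩ := nice_vF hG hE T
    refine continuous_eul _ _ fun j hj => ?_
    have hN' : (0 : ℝ) < NT T := by exact_mod_cast NT_pos T
    refine (hv ⟨j / NT T, by positivity, ?_⟩).diff.continuous
    rw [div_le_iff₀ hN']
    exact_mod_cast hj.le
  have e1 : ∫ z, g (W (vF G E) z T) ∂(piNu E) = ∫ ω, ∏ e ∈ K, ψ e (W (vG G) (Z ω) T e) ∂P := by
    have hgW : Continuous (fun z => g (W (vF G E) z T)) := (hn ()).diff.continuous.comp hcW
    rw [← hlaw, integral_map hmr.aemeasurable hgW.aestronglyMeasurable]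
    refine integral_congr_ae (.of_forall fun ω => ?_)
    refine prod_congr rfl fun e he => ?_
    rw [ext0_coe E _ ⟨e, hK he⟩, W, W, ← eul_res hG hE]
  have e2 : avg (Tr E) (indv E) g T = (∑ S ∈ Tr E, ∏ e ∈ K,
      ∫ z, ψ e (z + T * if e ∈ S then 1 else 0) ∂nu) / (Tr E).card := by
    unfold avg
    congr 1
    refine sum_congr rfl fun S _ => ?_
    have h1 : ∀ z : E → ℝ, g (z + (T : ℝ) • indv E S) = ∏ j : E,
        (fun (j : E) (u : ℝ) => if j.1 ∈ K then ψ j (u + T * if j.1 ∈ S then 1 else 0) else 1)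
          j (z j) := fun z => by
      rw [hg]
      dsimp only
      rw [← prod_coe_ite hK]
      refine prod_congr rfl fun j _ => ?_
      simp [ext0_coe, indv]
    simp only [h1]
    rw [integral_fintype_prod_eq_prod (fun (j : E) (u : ℝ) =>
      if j.1 ∈ K then ψ j (u + T * if j.1 ∈ S then 1 else 0) else 1), ← prod_coe_ite hK]
    refine prod_congr rfl fun j _ => ?_
    split_ifs <;> simp
  rwa [e1, e2] at key

end Vale.Agent.P143
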