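import Vale.Agent.P143.Flow
import Vale.Agent.P143.Defs

/-! IID edge labels from IID vertex labels. -/

namespace Vale.Agent.P143

open MeasureTheory Real Filter Topology Finset SimpleGraph
open scoped Classical

universe u
variable {V : Type u}

/-- product of logistic measures -/
noncomputable abbrev QQ (ι : Type*) : Measure (ι → ℝ) := Measure.infinitePi fun _ : ι => nu

/-- a decoder of a uniform variable into an IID sequence -/
noncomputable def xi : unitInterval → Bool × ℕ → ℝ :=
  (Measure.exists_measurable_map_eq (QQ (Bool × ℕ))).choose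

lemma measurable_xi : Measurable xi :=
  (Measure.exists_measurable_map_eq (QQ (Bool × ℕ))).choose_spec.1

lemma map_xi : volume.map xi = QQ (Bool × ℕ) :=
  (Measure.exists_measurable_map_eq (QQ (Bool × ℕ))).choose_spec.2

/-- the two independent arrays read from the vertex labels -/
noncomputable def arr (U : V → unitInterval) (b : Bool) : V × ℕ → ℝ := fun p => xi (U p.1) (b, p.2)

lemma measurable_arr (b : Bool) : Measurable (fun U : V → unitInterval => arr U b) :=
  measurable_pi_lambda _ fun p =>
    (measurable_pi_apply _).comp (measurable_xi.comp (measurable_pi_apply p.1))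

instance : IsProbabilityMeasure (iidUniform V) := by unfold iidUniform; infer_instance

lemma map_arr : (iidUniform V).map (fun U => (arr U false, arr U true)) =
    (QQ (V × ℕ)).prod (QQ (V × ℕ)) := by
  have h1 : (iidUniform V).map (fun U v => xi (U v)) =
      Measure.infinitePi fun _ : V => QQ (Bool × ℕ) := by
    rw [iidUniform, Measure.infinitePi_map_pi _ (f := fun _ => xi) fun _ => measurable_xi]
    simp only [map_xi]
  have h2 := Measure.infinitePi_map_curry_symm (ι := V) (κ := Bool × ℕ) (X := ℝ) (fun _ _ => nu)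
  have h3 := Measure.map_infinitePi_infinitePi_of_inj (P := fun _ : V × (Bool × ℕ) => nu)
    (f := fun p : Bool × (V × ℕ) => (p.2.1, p.1, p.2.2)) (by
      rintro ⟨a, b, c⟩ ⟨a', b', c'⟩ h
      simp only [Prod.mk.injEq] at h ⊢
      tauto)
  have h4 := Measure.infinitePi_map_curry (ι := Bool) (κ := V × ℕ) (X := ℝ) (fun _ _ => nu)
  have h5 := Measure.infinitePi_map_eval_prod (P := fun _ : Bool => QQ (V × ℕ))
    (i := false) (j := true) (by simp)
  have m1 : Measurable (fun (U : V → unitInterval) v => xi (U v)) :=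
    measurable_pi_lambda _ fun v => measurable_xi.comp (measurable_pi_apply v)
  rw [← h5, ← h4, ← h3, ← h2, ← h1, Measure.map_map, Measure.map_map, Measure.map_map,
    Measure.map_map]
  · rfl
  all_goals first | exact m1 | fun_prop

/-- rank of the neighbour `v` of `u` -/
noncomputable def rank (G : SimpleGraph V) (a : V × ℕ → ℝ) (u v : V) : ℕ :=
  {w | G.Adj u w ∧ a (w, 0) < a (v, 0)}.ncard

/-- edge labels -/
noncomputable def Zab (G : SimpleGraph V) (a b : V × ℕ → ℝ) : Sym2 V → ℝ :=
  Sym2.lift ⟨fun u v => if a (v, 0) < a (u, 0) then b (u, rank G a u v)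
    else if a (u, 0) < a (v, 0) then b (v, rank G a v u) else 0, fun u v => by
      rcases lt_trichotomy (a (u, 0)) (a (v, 0)) with h | h | h
      · simp [h, h.le.not_gt]
      · simp [h]
      · simp [h, h.le.not_gt]⟩

lemma Zab_mk (G : SimpleGraph V) (a b : V × ℕ → ℝ) (u v : V) :
    Zab G a b s(u, v) = if a (v, 0) < a (u, 0) then b (u, rank G a u v)
      else if a (u, 0) < a (v, 0) then b (v, rank G a v u) else 0 := rfl

lemma rank_lt {G : SimpleGraph V} (hG : LF G) (a : V × ℕ → ℝ) {u v v' : V} (h : G.Adj u v)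
    (hlt : a (v, 0) < a (v', 0)) : rank G a u v < rank G a u v' := by
  refine Set.ncard_lt_ncard ⟨fun w hw => ⟨hw.1, hw.2.trans hlt⟩, fun hs => ?_⟩
    ((hG u).subset fun w hw => hw.1)
  exact lt_irrefl _ (hs ⟨h, hlt⟩).2

lemma exists_idx {G : SimpleGraph V} (hG : LF G) {a : V × ℕ → ℝ}
    (ha : ∀ u v, u ≠ v → a (u, 0) ≠ a (v, 0)) : ∃ f : G.edgeSet → V × ℕ,
      Function.Injective f ∧ ∀ b (e : G.edgeSet), Zab G a b e = b (f e) := by
  have : ∀ e : G.edgeSet, ∃ u v, e.1 = s(u, v) ∧ G.Adj u v ∧
      ∀ b, Zab G a b e = b (u, rank G a u v) := by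
    rintro ⟨e, he⟩
    induction e using Sym2.ind with
    | h u v =>
      have hadj : G.Adj u v := he
      rcases lt_trichotomy (a (u, 0)) (a (v, 0)) with h | h | h
      · exact ⟨v, u, Sym2.eq_swap, hadj.symm, fun b => by simp [Zab_mk, h, h.le.not_gt]⟩
      · exact absurd h (ha u v hadj.ne)
      · exact ⟨u, v, rfl, hadj, fun b => by simp [Zab_mk, h]⟩
  choose u v h1 h2 h3 using this
  refine ⟨fun e => (u e, rank G a (u e) (v e)), fun e e' h => ?_, fun b e => h3 e b⟩
  simp only [Prod.mk.injEq] at h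
  obtain ⟨hu, hr⟩ := h
  have hv : v e = v e' := by
    by_contra hne
    rcases lt_or_gt_of_ne (ha _ _ hne) with hlt | hlt
    · have := rank_lt hG a (h2 e) hlt
      rw [hr, hu] at this
      exact lt_irrefl _ this
    · have := rank_lt hG a (h2 e') hlt
      rw [← hr, ← hu] at this
      exact lt_irrefl _ this
  exact Subtype.ext (by rw [h1, h1, hu, hv])

lemma measurable_Zab {Ω : Type*} [MeasurableSpace Ω] [Countable V] {G : Ω → SimpleGraph V}
    (hG : ∀ u v, MeasurableSet {ω | (G ω).Adj u v}) {a b : Ω → V × ℕ → ℝ} (ha : Measurable a)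
    (hb : Measurable b) : Measurable (fun ω => Zab (G ω) (a ω) (b ω)) := by
  have hlt : ∀ u v, MeasurableSet {ω | a ω (u, 0) < a ω (v, 0)} := fun u v =>
    measurableSet_lt ((measurable_pi_apply _).comp ha) ((measurable_pi_apply _).comp ha)
  have hr : ∀ u v, Measurable (fun ω => rank (G ω) (a ω) u v) := fun u v => by
    refine measurable_ncard.comp (measurable_set_iff.2 fun w => ?_)
    exact measurableSet_setOfPred.1 ((hG u w).inter (hlt w v))
  have hb' : ∀ u v, Measurable (fun ω => b ω (u, rank (G ω) (a ω) u v)) := fun u v => by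
    have : Measurable (fun p : Ω × ℕ => b p.1 (u, p.2)) :=
      measurable_from_prod_countable_left fun n => (measurable_pi_apply (u, n)).comp hb
    exact this.comp (measurable_id.prodMk (hr u v))
  refine measurable_pi_lambda _ fun e => ?_
  induction e using Sym2.ind with
  | h u v =>
    simp only [Zab_mk]
    exact Measurable.ite (hlt v u) (hb' u v) (Measurable.ite (hlt u v) (hb' v u) measurable_const)

lemma ae_inj [Countable V] : ∀ᵐ a ∂(QQ (V × ℕ)), ∀ u v, u ≠ v → a (u, 0) ≠ a (v, 0) := by
  rw [ae_all_iff]; intro u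
  rw [ae_all_iff]; intro v
  by_cases huv : u = v
  · exact .of_forall fun _ h => absurd huv h
  have h1 := Measure.infinitePi_map_eval_prod (P := fun _ : V × ℕ => nu)
    (i := (u, 0)) (j := (v, 0)) (by simpa using huv)
  have hd : MeasurableSet {p : ℝ × ℝ | p.1 = p.2} := measurableSet_eq_fun measurable_fst measurable_snd
  have h2 : (nu.prod nu) {p : ℝ × ℝ | p.1 = p.2} = 0 := by
    rw [Measure.prod_apply hd]
    have : ∀ x : ℝ, nu (Prod.mk x ⁻¹' {p : ℝ × ℝ | p.1 = p.2}) = 0 := fun x => by
      have : Prod.mk x ⁻¹' {p : ℝ × ℝ | p.1 = p.2} = {x} := by ext y; simp [eq_comm]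
      rw [this, measure_singleton]
    simp only [this, lintegral_const, zero_mul]
  rw [← h1, Measure.map_apply (by fun_prop) hd] at h2
  rw [ae_iff]
  refine measure_mono_null (fun a ha => ?_) h2
  simp only [ne_eq, Set.mem_ofPred_eq, Classical.not_imp, not_not] at ha
  exact ha.2

/-- the edge noise built from the vertex labels -/
noncomputable def Zl (G : SimpleGraph V) (U : V → unitInterval) : Sym2 V → ℝ :=
  Zab G (arr U false) (arr U true)

lemma measurable_Zl {Ω : Type*} [MeasurableSpace Ω] [Countable V] {G : Ω → SimpleGraph V}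
    (hG : ∀ u v, MeasurableSet {ω | (G ω).Adj u v}) {U : Ω → V → unitInterval}
    (hU : Measurable U) : Measurable (fun ω => Zl (G ω) (U ω)) :=
  measurable_Zab hG ((measurable_arr false).comp hU) ((measurable_arr true).comp hU)

lemma law_Zl [Countable V] {G : SimpleGraph V} (hG : LF G) {E : Finset (Sym2 V)}
    (hE : (E : Set (Sym2 V)) ⊆ G.edgeSet) :
    (iidUniform V).map (fun U (e : E) => Zl G U e) = piNu E := by
  have hm : Measurable (fun (p : (V × ℕ → ℝ) × (V × ℕ → ℝ)) (e : E) => Zab G p.1 p.2 e) :=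
    measurable_pi_lambda _ fun e => (measurable_pi_apply _).comp
      (measurable_Zab (G := fun _ => G) (fun u v => MeasurableSet.const _)
        measurable_fst measurable_snd)
  have h1 : (fun (U : V → unitInterval) (e : E) => Zl G U e) =
      (fun (p : (V × ℕ → ℝ) × (V × ℕ → ℝ)) (e : E) => Zab G p.1 p.2 e) ∘
        (fun U => (arr U false, arr U true)) := rfl
  rw [h1, ← Measure.map_map hm ((measurable_arr false).prodMk (measurable_arr true)), map_arr]
  ext s hs
  rw [Measure.map_apply hm hs, Measure.prod_apply (hm hs)]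
  have : ∀ᵐ a ∂(QQ (V × ℕ)), QQ (V × ℕ) (Prod.mk a ⁻¹' ((fun (p : (V × ℕ → ℝ) × (V × ℕ → ℝ))
      (e : E) => Zab G p.1 p.2 e) ⁻¹' s)) = piNu E s := by
    filter_upwards [ae_inj] with a ha
    obtain ⟨f, hf, hZ⟩ := exists_idx hG ha
    have hinj : Function.Injective (fun e : E => f ⟨e.1, hE e.2⟩) := fun e e' h => by
      have := hf h
      simp only [Subtype.mk.injEq] at this
      exact Subtype.ext this
    have h2 := Measure.map_infinitePi_infinitePi_of_inj (P := fun _ : V × ℕ => nu) hinj
    rw [piNu, ← Measure.infinitePi_eq_pi, ← h2, Measure.map_apply (by fun_prop) hs]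
    congr 1
    ext b
    simp only [Set.mem_preimage]
    congr! with e
    exact hZ b ⟨e.1, hE e.2⟩
  rw [lintegral_congr_ae this]
  simp

lemma Zab_map {V' : Type u} {G : SimpleGraph V} {G' : SimpleGraph V'} (σ : G ≃g G')
    (a b : V' × ℕ → ℝ) (e : Sym2 V) : Zab G' a b (e.map σ) =
      Zab G (fun p => a (σ p.1, p.2)) (fun p => b (σ p.1, p.2)) e := by
  have hr : ∀ u v, rank G' a (σ u) (σ v) = rank G (fun p => a (σ p.1, p.2)) u v := fun u v => by
    unfold rank
    rw [← Set.ncard_image_of_injective _ σ.injective]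
    congr 1
    ext w
    constructor
    · rintro ⟨h1, h2⟩
      obtain ⟨w, rfl⟩ := σ.surjective w
      exact ⟨w, ⟨σ.map_adj_iff.1 h1, h2⟩, rfl⟩
    · rintro ⟨w, ⟨h1, h2⟩, rfl⟩
      exact ⟨σ.map_adj_iff.2 h1, h2⟩
  induction e using Sym2.ind with
  | h u v => simp only [Sym2.map_mk, Zab_mk, hr]

lemma Zl_map {V' : Type u} {G : SimpleGraph V} {G' : SimpleGraph V'} (σ : G ≃g G')
    (U : V' → unitInterval) : Zl G' U ∘ Sym2.map σ = Zl G (U ∘ σ) := by
  ext e
  exact Zab_map σ _ _ e

end Vale.Agent.P143
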