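import Vale.Agent.P143.Labels

/-! Passage to the limit. -/

namespace Vale.Agent.P143

open MeasureTheory Real Filter Topology Finset SimpleGraph
open scoped Classical

/-- half step increment of the sigmoid -/
noncomputable def gt (u : ℝ) : ℝ := sigmoid (u + 1 / 2) - sigmoid u

lemma gt_pos (u : ℝ) : 0 < gt u := sub_pos.2 (sigmoid_lt (by linarith))

lemma gt_le (u : ℝ) : gt u ≤ 1 := by
  unfold gt; linarith [sigmoid_lt_one (u + 1 / 2), sigmoid_pos u]

lemma continuous_gt : Continuous gt := by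
  unfold gt; have := continuous_sigmoid; fun_prop

lemma tst_sig (a : ℝ) : Tst (fun u => sigmoid (u + a)) :=
  ⟨Nice.sig fun _ : Unit => a, fun _ => sigmoid_nonneg _, fun _ => sigmoid_le_one _, fun u v => by
    have := abs_sigmoid_sub_le (u + a) (v + a)
    rw [add_sub_add_right_eq_sub] at this
    linarith [abs_nonneg (u - v)]⟩

lemma tst_sig' (a : ℝ) : Tst (fun u => 1 - sigmoid (u + a)) :=
  ⟨(Nice.const (X := ℝ) (a := fun _ : Unit => (1 : ℝ)) (M := 1) (by simp)).sub
    (Nice.sig fun _ : Unit => a), fun _ => sub_nonneg.2 (sigmoid_le_one _),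
    fun u => by linarith [sigmoid_nonneg (u + a)], fun u v => by
    have := (tst_sig a).lip u v
    rwa [sub_sub_sub_cancel_left, abs_sub_comm]⟩

lemma tst_gt (a : ℝ) : Tst (fun u => gt (u + a)) := by
  refine ⟨?_, fun _ => (gt_pos _).le, fun _ => gt_le _, fun u v => ?_⟩
  · have := (Nice.sig fun _ : Unit => a + 1 / 2).sub (Nice.sig fun _ : Unit => a)
    simpa only [gt, add_assoc] using this
  · have h1 := abs_sigmoid_sub_le (u + a) (v + a)
    have h2 := abs_sigmoid_sub_le (u + a + 1 / 2) (v + a + 1 / 2)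
    rw [add_sub_add_right_eq_sub] at h1 h2
    rw [add_sub_add_right_eq_sub] at h2
    unfold gt
    have := abs_nonneg (u - v)
    rw [abs_le] at h1 h2 ⊢
    constructor <;> linarith [h1.1, h1.2, h2.1, h2.2]

lemma stabilize {u : ℕ → ℝ} (hu : ∀ T, |u (T + 1) - u T| ≤ 3 / 2)
    (hg : Tendsto (fun T => gt (u T)) atTop (𝓝 0)) :
    Tendsto (fun T => sigmoid (u T)) atTop (𝓝 (if ∀ᶠ T in atTop, 0 < u T then 1 else 0)) := by
  have hbig : ∀ r : ℝ, ∀ᶠ T in atTop, r < |u T| := fun r => by
    obtain ⟨x, -, hx⟩ := (isCompact_Icc (a := -|r|) (b := |r|)).exists_isMinOn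
      ⟨0, by simp⟩ continuous_gt.continuousOn
    filter_upwards [hg.eventually (gt_mem_nhds (gt_pos x))] with T hT
    by_contra h
    have h' : |u T| ≤ |r| := (not_lt.1 h).trans (le_abs_self r)
    exact absurd (hx (abs_le.1 h')) (not_le.2 hT)
  obtain ⟨T0, hT0⟩ := eventually_atTop.1 (hbig 2)
  rcases lt_or_ge 0 (u T0) with h | h
  · have hpos : ∀ T ≥ T0, 0 < u T := fun T hT => by
      induction T, hT using Nat.le_induction with
      | base => exact h
      | succ T hT ih =>
        have h1 := hT0 T hT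
        rw [abs_of_pos ih] at h1
        have := (abs_le.1 (hu T)).1
        linarith
    rw [if_pos (eventually_atTop.2 ⟨T0, hpos⟩)]
    refine tendsto_sigmoid_atTop.comp (tendsto_atTop.2 fun r => ?_)
    filter_upwards [hbig r, eventually_ge_atTop T0] with T h1 h2
    rw [abs_of_pos (hpos T h2)] at h1
    exact h1.le
  · have hneg : ∀ T ≥ T0, u T ≤ 0 := fun T hT => by
      induction T, hT using Nat.le_induction with
      | base => exact h
      | succ T hT ih =>
        have h1 := hT0 T hT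
        rw [abs_of_nonpos ih] at h1
        have := (abs_le.1 (hu T)).2
        linarith
    rw [if_neg fun hev => by
      obtain ⟨T, h1, h2⟩ := (hev.and (eventually_ge_atTop T0)).exists
      exact absurd (hneg T h2) (not_le.2 h1)]
    refine tendsto_sigmoid_atBot.comp (tendsto_atBot.2 fun r => ?_)
    filter_upwards [hbig (-r), eventually_ge_atTop T0] with T h1 h2
    rw [abs_of_nonpos (hneg T h2)] at h1
    linarith

lemma integrable_nu {f : ℝ → ℝ} (hf : Continuous f) {M : ℝ} (hM : ∀ y, |f y| ≤ M) :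
    Integrable f nu :=
  Integrable.of_bound hf.aestronglyMeasurable M (.of_forall hM)

lemma Tst.integrable {ψ : ℝ → ℝ} (h : Tst ψ) (a : ℝ) : Integrable (fun z => ψ (z + a)) nu :=
  integrable_nu (h.continuous.comp (continuous_add_const a)) (M := 1) fun y => by
    rw [abs_of_nonneg (h.nn _)]; exact h.le _

/-- summable error for the stabilisation -/
noncomputable def bet (T : ℕ) : ℝ :=
  ∫ z, gt (z + T / 2) ∂nu + ∫ z, gt (z + -(T / 2)) ∂nu

lemma sum_bet (n : ℕ) : ∑ T ∈ range n, bet T ≤ 2 := by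
  have i1 : ∀ a : ℝ, Integrable (fun z => gt (z + a)) nu := fun a => by
    simpa using (tst_gt 0).integrable a
  have h1 : ∀ z : ℝ, ∑ T ∈ range n, gt (z + T / 2) ≤ 1 := fun z => by
    have : ∀ T ∈ range n, gt (z + T / 2) = (fun T : ℕ => sigmoid (z + T / 2)) (T + 1) -
        (fun T : ℕ => sigmoid (z + T / 2)) T := fun T _ => by
      simp only [gt]; congr 2; push_cast; ring
    rw [sum_congr rfl this, sum_range_sub (fun T : ℕ => sigmoid (z + T / 2))]
    linarith [sigmoid_lt_one (z + n / 2), sigmoid_pos (z + (0 : ℕ) / 2)]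
  have h2 : ∀ z : ℝ, ∑ T ∈ range n, gt (z + -(T / 2)) ≤ 1 := fun z => by
    have : ∀ T ∈ range n, gt (z + -(T / 2)) = (fun T : ℕ => sigmoid (z + 1 / 2 - T / 2)) T -
        (fun T : ℕ => sigmoid (z + 1 / 2 - T / 2)) (T + 1) := fun T _ => by
      simp only [gt]; congr 2 <;> push_cast <;> ring
    rw [sum_congr rfl this, sum_range_sub' (fun T : ℕ => sigmoid (z + 1 / 2 - T / 2))]
    linarith [sigmoid_lt_one (z + 1 / 2 - (0 : ℕ) / 2), sigmoid_pos (z + 1 / 2 - n / 2)]
  unfold bet
  rw [sum_add_distrib, ← integral_finsetSum _ fun T _ => i1 _,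
    ← integral_finsetSum _ fun T _ => i1 _]
  have e1 := integral_mono (integrable_finsetSum (range n) fun T _ => i1 (T / 2))
    (integrable_const (1 : ℝ)) h1
  have e2 := integral_mono (integrable_finsetSum (range n) fun T _ => i1 (-(T / 2)))
    (integrable_const (1 : ℝ)) h2
  simp only [integral_const, probReal_univ, smul_eq_mul, mul_one] at e1 e2
  linarith

/-- vanishing error for the identification of the law -/
noncomputable def eps (T : ℕ) : ℝ :=
  ∫ z, sigmoid (z + -(T / 2)) ∂nu + ∫ z, (1 - sigmoid (z + T / 2)) ∂nu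

lemma tendsto_eps : Tendsto eps atTop (𝓝 0) := by
  have hT : Tendsto (fun T : ℕ => (T : ℝ) / 2) atTop atTop :=
    tendsto_natCast_atTop_atTop.atTop_div_const (by norm_num)
  have h1 : Tendsto (fun T : ℕ => ∫ z, sigmoid (z + -(T / 2)) ∂nu) atTop (𝓝 (∫ _z, (0 : ℝ) ∂nu)) := by
    refine tendsto_integral_of_dominated_convergence (fun _ => 1)
      (fun T => (tst_sig _).continuous.aestronglyMeasurable) (integrable_const _)
      (fun T => .of_forall fun z => ?_) (.of_forall fun z => ?_)
    · rw [norm_eq_abs, abs_of_nonneg (sigmoid_nonneg _)]; exact sigmoid_le_one _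
    · exact tendsto_sigmoid_atBot.comp
        (tendsto_atBot_add_const_left _ _ (tendsto_neg_atTop_atBot.comp hT))
  have h2 : Tendsto (fun T : ℕ => ∫ z, (1 - sigmoid (z + T / 2)) ∂nu) atTop
      (𝓝 (∫ _z, (0 : ℝ) ∂nu)) := by
    refine tendsto_integral_of_dominated_convergence (fun _ => 1)
      (fun T => (tst_sig' _).continuous.aestronglyMeasurable) (integrable_const _)
      (fun T => .of_forall fun z => ?_) (.of_forall fun z => ?_)
    · rw [norm_eq_abs, abs_of_nonneg ((tst_sig' _).nn _)]; exact (tst_sig' _).le _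
    · have := (tendsto_const_nhds (x := (1 : ℝ))).sub
        (tendsto_sigmoid_atTop.comp (tendsto_atTop_add_const_left _ z hT))
      simpa using this
  have h3 := h1.add h2
  simp only [integral_zero, add_zero] at h3
  exact h3

/-- the test functions identifying the law -/
noncomputable def psi (b : Bool) (T : ℕ) (u : ℝ) : ℝ :=
  if b then sigmoid (u + -(T / 2)) else 1 - sigmoid (u + -(T / 2))

lemma tst_psi (b : Bool) (T : ℕ) : Tst (psi b T) := by
  cases b
  · exact tst_sig' _
  · exact tst_sig _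

lemma psi_err (b : Bool) (T : ℕ) (p : Prop) [Decidable p] [Decidable (p ↔ b = true)] :
    |∫ z, psi b T (z + T * if p then 1 else 0) ∂nu - if (p ↔ b = true) then 1 else 0| ≤ eps T := by
  have n1 : 0 ≤ ∫ z, sigmoid (z + -(T / 2)) ∂nu := integral_nonneg fun _ => sigmoid_nonneg _
  have n2 : 0 ≤ ∫ z, (1 - sigmoid (z + T / 2)) ∂nu := integral_nonneg fun _ => (tst_sig' _).nn _
  have i1 : ∀ a, Integrable (fun z => sigmoid (z + a)) nu := fun a => by
    simpa using (tst_sig 0).integrable a
  have s1 : ∀ a, ∫ z, (1 - sigmoid (z + a)) ∂nu = 1 - ∫ z, sigmoid (z + a) ∂nu := fun a => by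
    rw [integral_sub (integrable_const _) (i1 a)]; simp
  have e1 : ∀ z : ℝ, z + T * 1 + -(T / 2) = z + T / 2 := fun z => by ring
  rw [s1] at n2
  unfold eps
  rw [s1, abs_le]
  by_cases hp : p <;> cases b <;>
    simp only [psi, hp, if_true, if_false, e1, mul_zero, add_zero, Bool.false_eq_true, iff_self,
      iff_false, iff_true, not_true, s1] <;> constructor <;> linarith

section main
universe u
variable {V : Type u} [Countable V] {G : SimpleGraph V}

/-- the factor map -/
noncomputable def Phi (G : SimpleGraph V) (U : V → unitInterval) (e : Sym2 V) : Bool :=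
  decide (∀ᶠ T : ℕ in atTop, 0 < W (vG G) (Zl G U) T e + -((T : ℝ) / 2))

lemma measurable_W {Ω : Type*} [MeasurableSpace Ω] {G H : Ω → SimpleGraph V}
    (hG : ∀ u v, MeasurableSet {ω | (G ω).Adj u v})
    (hH : ∀ u v, MeasurableSet {ω | (H ω).Adj u v}) {U : Ω → V → unitInterval}
    (hU : Measurable U) (T : ℕ) (e : Sym2 V) :
    Measurable (fun ω => W (vG (H ω)) (Zl (G ω) (U ω)) T e) :=
  (measurable_pi_apply e).comp (measurable_eul hH (measurable_Zl hG hU) _ _)

lemma measurable_Phi {Ω : Type*} [MeasurableSpace Ω] {G : Ω → SimpleGraph V}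
    (hG : ∀ u v, MeasurableSet {ω | (G ω).Adj u v}) {U : Ω → V → unitInterval}
    (hU : Measurable U) (e : Sym2 V) : Measurable (fun ω => Phi (G ω) (U ω) e) := by
  refine measurable_to_bool ?_
  have : (fun ω => Phi (G ω) (U ω) e) ⁻¹' {true} = ⋃ N : ℕ, ⋂ T : ℕ, ⋂ _ : T ≥ N,
      {ω | 0 < W (vG (G ω)) (Zl (G ω) (U ω)) T e + -((T : ℝ) / 2)} := by
    ext ω
    simp [Phi, eventually_atTop]
  rw [this]
  exact MeasurableSet.iUnion fun N => MeasurableSet.iInter fun T => MeasurableSet.iInter fun _ =>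
    measurableSet_lt measurable_const ((measurable_W hG hG hU T e).add_const _)

omit [Countable V] in
lemma Phi_map {V' : Type u} {G' : SimpleGraph V'} (σ : G ≃g G') (U : V' → unitInterval)
    (e : Sym2 V) : Phi G' U (e.map σ) = Phi G (U ∘ σ) e := by
  have : ∀ T, W (vG G') (Zl G' U) T (e.map σ) = W (vG G) (Zl G (U ∘ σ)) T e := fun T => by
    rw [← Zl_map, W, W, ← eul_map]; rfl
  simp only [Phi, this]

/-- exhaustion by graphs with finitely many edges -/
structure Exh (G : SimpleGraph V) (H : ℕ → SimpleGraph V) (E : ℕ → Finset (Sym2 V)) : Prop where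
  le : ∀ n, H n ≤ G
  edges : ∀ n, (E n : Set (Sym2 V)) = (H n).edgeSet
  ex : ∀ e ∈ G.edgeSet, ∀ᶠ n in atTop, e ∈ (H n).edgeSet

variable {H : ℕ → SimpleGraph V} {E : ℕ → Finset (Sym2 V)}

lemma meas_prod (G H : SimpleGraph V) (K : Finset (Sym2 V)) {ψ : Sym2 V → ℝ → ℝ}
    (hψ : ∀ e, Tst (ψ e)) (T : ℕ) :
    Measurable (fun U => ∏ e ∈ K, ψ e (W (vG H) (Zl G U) T e)) :=
  Finset.measurable_prod _ fun e _ => (hψ e).continuous.measurable.comp
    (measurable_W (G := fun _ => G) (H := fun _ => H) (fun _ _ => MeasurableSet.const _)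
      (fun _ _ => MeasurableSet.const _) measurable_id T e)

omit [Countable V] in
lemma norm_prod_le (K : Finset (Sym2 V)) {ψ : Sym2 V → ℝ → ℝ} (hψ : ∀ e, Tst (ψ e))
    (y : Sym2 V → ℝ) : ‖∏ e ∈ K, ψ e (y e)‖ ≤ 1 := by
  rw [norm_eq_abs, abs_of_nonneg (prod_nonneg fun e _ => (hψ e).nn _)]
  exact prod_le_one (fun e _ => (hψ e).nn _) fun e _ => (hψ e).le _

lemma tendsto_vol (hG : LF G) (h : Exh G H E) (K : Finset (Sym2 V)) {ψ : Sym2 V → ℝ → ℝ}
    (hψ : ∀ e, Tst (ψ e)) (T : ℕ) :
    Tendsto (fun n => ∫ U, ∏ e ∈ K, ψ e (W (vG (H n)) (Zl G U) T e) ∂(iidUniform V)) atTop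
      (𝓝 (∫ U, ∏ e ∈ K, ψ e (W (vG G) (Zl G U) T e) ∂(iidUniform V))) := by
  refine tendsto_integral_of_dominated_convergence (fun _ => 1)
    (fun n => (meas_prod G (H n) K hψ T).aestronglyMeasurable) (integrable_const _)
    (fun n => .of_forall fun U => norm_prod_le K hψ _) (.of_forall fun U => ?_)
  refine tendsto_finsetProd _ fun e _ => ((hψ e).continuous.tendsto _).comp ?_
  exact tendsto_pi_nhds.1 (tendsto_eul hG h.le h.ex _ _ _) e

lemma ev_approx (hG : LF G) (h : Exh G H E) {K : Finset (Sym2 V)}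
    (hK : (K : Set (Sym2 V)) ⊆ G.edgeSet) : ∀ᶠ n in atTop, K ⊆ E n ∧
      ∀ (ψ : Sym2 V → ℝ → ℝ) (_ : ∀ e, Tst (ψ e)) (T : ℕ),
      |∫ U, ∏ e ∈ K, ψ e (W (vG (H n)) (Zl G U) T e) ∂(iidUniform V) -
        (∑ S ∈ Tr (E n), ∏ e ∈ K, ∫ z, ψ e (z + T * if e ∈ S then 1 else 0) ∂nu) /
          (Tr (E n)).card| ≤ K.card * (1 / 2) ^ T := by
  have := (eventually_all_finset K).2 fun e he => h.ex e (hK (by exact_mod_cast he))
  filter_upwards [this] with n hn
  have hKE : K ⊆ E n := fun e he => by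
    have := hn e he
    rw [← h.edges] at this
    exact_mod_cast this
  refine ⟨hKE, fun ψ hψ T => fin_approx (hG.mono (h.le n)) (h.edges n) hKE hψ
    (measurable_Zl (G := fun _ => G) (fun _ _ => MeasurableSet.const _) measurable_id)
    (law_Zl hG ?_) T⟩
  rw [h.edges]
  exact edgeSet_mono (h.le n)

lemma ae_stabilize (hG : LF G) (h : Exh G H E) {e : Sym2 V} (he : e ∈ G.edgeSet) :
    ∀ᵐ U ∂(iidUniform V), Tendsto (fun T : ℕ => sigmoid (W (vG G) (Zl G U) T e + -((T : ℝ) / 2)))
      atTop (𝓝 (if Phi G U e = true then 1 else 0)) := by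
  set X : ℕ → (V → unitInterval) → ℝ :=
    fun T U => gt (W (vG G) (Zl G U) T e + -((T : ℝ) / 2)) with hX
  have hXm : ∀ T, Measurable (X T) := fun T => by
    simpa using meas_prod G G {e} (ψ := fun _ u => gt (u + -((T : ℝ) / 2))) (fun _ => tst_gt _) T
  have hXi : ∀ T, Integrable (X T) (iidUniform V) := fun T =>
    Integrable.of_bound (hXm T).aestronglyMeasurable 1 (.of_forall fun U => by
      rw [norm_eq_abs, abs_of_pos (gt_pos _)]; exact gt_le _)
  have hb : ∀ T : ℕ, ∫ U, X T U ∂(iidUniform V) ≤ bet T + (1 / 2) ^ T := fun T => by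
    have h1 := tendsto_vol hG h {e} (ψ := fun _ u => gt (u + -((T : ℝ) / 2))) (fun _ => tst_gt _) T
    simp only [prod_singleton] at h1
    refine le_of_tendsto h1 ?_
    filter_upwards [ev_approx hG h (K := {e}) (by simpa using he)] with n hn
    have h2 := hn.2 (fun _ u => gt (u + -((T : ℝ) / 2))) (fun _ => tst_gt _) T
    simp only [prod_singleton, card_singleton, Nat.cast_one, one_mul] at h2
    have hc : (0 : ℝ) < (Tr (E n)).card := by exact_mod_cast (Tr_nonempty (E n)).card_pos
    have h3 : (∑ S ∈ Tr (E n), ∫ z, gt ((z + T * if e ∈ S then 1 else 0) + -((T : ℝ) / 2)) ∂nu) /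
        (Tr (E n)).card ≤ bet T := by
      rw [div_le_iff₀' hc, ← nsmul_eq_mul]
      refine sum_le_card_nsmul _ _ _ fun S _ => ?_
      have n1 : 0 ≤ ∫ z, gt (z + T / 2) ∂nu := integral_nonneg fun _ => (gt_pos _).le
      have n2 : 0 ≤ ∫ z, gt (z + -(T / 2)) ∂nu := integral_nonneg fun _ => (gt_pos _).le
      have e1 : ∀ z : ℝ, z + T * 1 + -(T / 2) = z + T / 2 := fun z => by ring
      unfold bet
      split_ifs
      · simp only [e1]; linarith
      · simp only [mul_zero, add_zero]; linarith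
    linarith [(abs_le.1 h2).2]
  have hsum : ∫⁻ U, ∑' T, ENNReal.ofReal (X T U) ∂(iidUniform V) ≤ ENNReal.ofReal 4 := by
    rw [lintegral_tsum fun T => (hXm T).ennreal_ofReal.aemeasurable]
    refine ENNReal.tsum_le_of_sum_range_le fun n => ?_
    have : ∀ T ∈ range n, ∫⁻ U, ENNReal.ofReal (X T U) ∂(iidUniform V) =
        ENNReal.ofReal (∫ U, X T U ∂(iidUniform V)) := fun T _ =>
      (ofReal_integral_eq_lintegral_ofReal (hXi T) (.of_forall fun U => (gt_pos _).le)).symm
    rw [sum_congr rfl this, ← ENNReal.ofReal_sum_of_nonneg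
      fun T _ => integral_nonneg fun U => (gt_pos _).le]
    refine ENNReal.ofReal_le_ofReal ((sum_le_sum fun T _ => hb T).trans ?_)
    rw [sum_add_distrib]
    have := sum_bet n
    have := sum_geometric_two_le n
    linarith
  have hfin := ae_lt_top (Measurable.tsum fun T => (hXm T).ennreal_ofReal)
    (hsum.trans_lt ENNReal.ofReal_lt_top).ne
  filter_upwards [hfin] with U hU
  have h1 := ENNReal.tendsto_atTop_zero_of_tsum_ne_top hU.ne
  have h2 : Tendsto (fun T => X T U) atTop (𝓝 0) := by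
    have := (ENNReal.tendsto_toReal ENNReal.zero_ne_top).comp h1
    refine Tendsto.congr (fun T => ?_) this
    exact ENNReal.toReal_ofReal (gt_pos _).le
  have h3 := stabilize (u := fun T : ℕ => W (vG G) (Zl G U) T e + -((T : ℝ) / 2)) (fun T => by
    have := W_incr (vel_vG hG) (Zl G U) T e
    convert this using 2
    push_cast; ring) h2
  simpa only [Phi, decide_eq_true_eq] using h3

theorem tendsto_cyl (hG : LF G) (h : Exh G H E) {K : Finset (Sym2 V)}
    (hK : (K : Set (Sym2 V)) ⊆ G.edgeSet) (a : Sym2 V → Bool) :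
    Tendsto (fun n => (((Tr (E n)).filter fun S => ∀ e ∈ K, (e ∈ S ↔ a e = true)).card : ℝ) /
      (Tr (E n)).card) atTop (𝓝 ((iidUniform V).real {U | ∀ e ∈ K, Phi G U e = a e})) := by
  have hms : MeasurableSet {U : V → unitInterval | ∀ e ∈ K, Phi G U e = a e} := by
    have : {U : V → unitInterval | ∀ e ∈ K, Phi G U e = a e} =
        ⋂ e ∈ K, (fun U => Phi G U e) ⁻¹' {a e} := by ext U; simp
    rw [this]
    exact K.measurableSet_biInter fun e _ => measurable_Phi (G := fun _ => G)
      (fun _ _ => MeasurableSet.const _) measurable_id e (measurableSet_singleton _)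
  set p := (iidUniform V).real {U | ∀ e ∈ K, Phi G U e = a e} with hp
  have hψ : ∀ T e, Tst (psi (a e) T) := fun T e => tst_psi _ _
  have h1 : Tendsto (fun T => ∫ U, ∏ e ∈ K, psi (a e) T (W (vG G) (Zl G U) T e) ∂(iidUniform V))
      atTop (𝓝 p) := by
    rw [hp, ← integral_indicator_one hms]
    refine tendsto_integral_of_dominated_convergence (fun _ => 1)
      (fun T => (meas_prod G G K (hψ T) T).aestronglyMeasurable) (integrable_const _)
      (fun T => .of_forall fun U => norm_prod_le K (hψ T) _) ?_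
    have := (ae_ball_iff (μ := iidUniform V) K.countable_toSet).2 fun e he =>
      ae_stabilize hG h (hK he)
    filter_upwards [this] with U hU
    have e1 : {U : V → unitInterval | ∀ e ∈ K, Phi G U e = a e}.indicator 1 U =
        ∏ e ∈ K, (if Phi G U e = a e then (1 : ℝ) else 0) := by
      rw [prod_boole, Set.indicator_apply]
      simp
    rw [e1]
    refine tendsto_finsetProd _ fun e he => ?_
    have h2 := hU e (by exact_mod_cast he)
    cases ha : a e
    · have := (tendsto_const_nhds (x := (1 : ℝ))).sub h2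
      simp only [psi, Bool.false_eq_true, if_false]
      convert this using 2
      cases Phi G U e <;> simp
    · simpa only [psi, if_true] using h2
  have h2 : Tendsto (fun T : ℕ => (K.card : ℝ) * (1 / 2) ^ T + K.card * eps T) atTop (𝓝 0) := by
    have := ((tendsto_pow_atTop_nhds_zero_of_lt_one (r := (1 / 2 : ℝ)) (by norm_num)
      (by norm_num)).const_mul (K.card : ℝ)).add (tendsto_eps.const_mul (K.card : ℝ))
    simpa using this
  rw [Metric.tendsto_nhds]
  intro η hη
  obtain ⟨T, hT1, hT2⟩ := (((Metric.tendsto_nhds.1 h1) (η / 3) (by positivity)).and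
    (h2.eventually (gt_mem_nhds (show 0 < η / 3 by positivity)))).exists
  filter_upwards [ev_approx hG h hK, (Metric.tendsto_nhds.1 (tendsto_vol hG h K (hψ T) T))
    (η / 3) (by positivity)] with n hn h3
  have h4 := hn.2 _ (hψ T) T
  have hc : (0 : ℝ) < (Tr (E n)).card := by exact_mod_cast (Tr_nonempty (E n)).card_pos
  have h5 : |(∑ S ∈ Tr (E n), ∏ e ∈ K, ∫ z, psi (a e) T (z + T * if e ∈ S then 1 else 0) ∂nu) /
      (Tr (E n)).card - (((Tr (E n)).filter fun S => ∀ e ∈ K, (e ∈ S ↔ a e = true)).card : ℝ) /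
      (Tr (E n)).card| ≤ K.card * eps T := by
    rw [← sub_div, abs_div, abs_of_pos hc, div_le_iff₀' hc, card_filter, Nat.cast_sum,
      ← sum_sub_distrib, ← nsmul_eq_mul]
    refine (abs_sum_le_sum_abs _ _).trans (sum_le_card_nsmul _ _ _ fun S _ => ?_)
    have key : |∏ e ∈ K, ∫ z, psi (a e) T (z + T * if e ∈ S then 1 else 0) ∂nu -
        ∏ e ∈ K, (if (e ∈ S ↔ a e = true) then (1 : ℝ) else 0)| ≤ K.card * eps T := by
      refine (abs_prod_sub_prod_le K (fun e _ => ⟨integral_nonneg fun _ => (hψ T e).nn _, ?_⟩)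
        (fun e _ => by split_ifs <;> simp)).trans ?_
      · have := integral_mono ((hψ T e).integrable _) (integrable_const (1 : ℝ))
          (fun z => (hψ T e).le (z + T * if e ∈ S then 1 else 0))
        simpa using this
      · rw [← nsmul_eq_mul]
        exact sum_le_card_nsmul _ _ _ fun e _ => psi_err (a e) T (e ∈ S)
    refine le_of_eq_of_le ?_ key
    congr 2
    rw [prod_boole]
    split_ifs <;> simp
  rw [Real.dist_eq] at hT1 h3 ⊢
  rw [abs_lt] at hT1 h3 ⊢
  rw [abs_le] at h4 h5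
  constructor <;> linarith [h4.1, h4.2, h5.1, h5.2, hT1.1, hT1.2, h3.1, h3.2]

end main

end Vale.Agent.P143
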