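import Vale.Agent.P143.Limit

/-! The factor map has the law of the free uniform spanning forest. -/

namespace Vale.Agent.P143

open MeasureTheory ProbabilityTheory Filter Topology Finset SimpleGraph
open scoped Classical

universe u
variable {V : Type u} {G : SimpleGraph V}

lemma countable_of_connected (hc : G.Connected) (hG : LF G) : Countable V := by
  obtain ⟨o⟩ := hc.nonempty
  let B : ℕ → Set V := fun n => Nat.rec {o} (fun _ s => s ∪ ⋃ v ∈ s, G.neighborSet v) n
  have hB : ∀ n, (B n).Finite := fun n => by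
    induction n with
    | zero => exact Set.finite_singleton o
    | succ n ih => exact ih.union (ih.biUnion fun v _ => hG v)
  have hall : ∀ v, ∃ n, v ∈ B n := fun v => by
    have := (reachable_iff_reflTransGen o v).1 (hc.preconnected o v)
    induction this with
    | refl => exact ⟨0, rfl⟩
    | @tail x y _ h2 ih =>
      obtain ⟨n, hn⟩ := ih
      exact ⟨n + 1, Or.inr (Set.mem_biUnion hn h2)⟩
  rw [← Set.countable_univ_iff]
  exact (Set.countable_iUnion fun n => (hB n).countable).mono fun v _ => Set.mem_iUnion.2 (hall v)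

lemma exists_exhaustion [Countable V] (hc : G.Connected) :
    ∃ H : ℕ → G.Subgraph, IsExhaustion H := by
  have := hc.nonempty
  obtain ⟨f, hf⟩ := exists_surjective_nat V
  choose ex hex1 hex2 using fun (t : Finset V) (v : V) =>
    extend_finset_to_connected hc.preconnected (t := insert v t) (insert_nonempty v t)
  let t : ℕ → Finset V := fun n => Nat.rec (ex ∅ (f 0)) (fun n s => ex s (f (n + 1))) n
  have ht1 : ∀ n, f n ∈ t n := fun n => by
    cases n with
    | zero => exact hex1 _ _ (mem_insert_self _ _)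
    | succ n => exact hex1 _ _ (mem_insert_self _ _)
  have ht2 : Monotone t := monotone_nat_of_le_succ fun n =>
    (subset_insert _ _).trans (hex1 (t n) (f (n + 1)))
  have ht3 : ∀ n : ℕ, (G.induce (SetLike.coe (t n))).Connected := fun n => by
    cases n with
    | zero => exact hex2 _ _
    | succ n => exact hex2 _ _
  have ht4 : ∀ v, ∀ᶠ n in atTop, v ∈ t n := fun v => by
    obtain ⟨m, rfl⟩ := hf v
    filter_upwards [eventually_ge_atTop m] with n hn using ht2 hn (ht1 m)
  refine ⟨fun n => (⊤ : G.Subgraph).induce (SetLike.coe (t n)), fun n => ⟨(t n).finite_toSet,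
    connected_induce_iff.1 (ht3 n)⟩, fun m n h => Subgraph.induce_mono_right
      (by exact_mod_cast ht2 h), ?_⟩
  refine top_le_iff.1 ⟨fun v _ => ?_, fun u v huv => ?_⟩
  · rw [Subgraph.verts_iSup, Set.mem_iUnion]
    exact (ht4 v).exists
  · rw [Subgraph.iSup_adj]
    obtain ⟨n, h1, h2⟩ := ((ht4 u).and (ht4 v)).exists
    exact ⟨n, h1, h2, huv⟩

lemma finite_edgeSet {H : G.Subgraph} (h : H.verts.Finite) : H.edgeSet.Finite := by
  refine ((h.prod h).image (fun p => s(p.1, p.2))).subset fun e he => ?_
  induction e using Sym2.ind with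
  | h u v => exact ⟨(u, v), ⟨H.edge_vert he, H.edge_vert (H.adj_symm he)⟩, rfl⟩

/-- the configuration of an edge set -/
noncomputable def conf (G : SimpleGraph V) (S : Finset (Sym2 V)) : G.edgeSet → Bool :=
  fun e => decide (e.1 ∈ S)

lemma tree_set {H : G.Subgraph} (hH : H.Connected) {E : Finset (Sym2 V)}
    (hE : (E : Set (Sym2 V)) = H.edgeSet) :
    {x : G.edgeSet → Bool | IsSpanningTreeOf H (Subtype.val '' {e | x e = true})} =
      ((Tr E).image (conf G) : Finset (G.edgeSet → Bool)) := by
  have hEG : ∀ e ∈ E, e ∈ G.edgeSet := fun e he =>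
    H.edgeSet_subset (by rw [← hE]; exact_mod_cast he)
  have key : ∀ S : Finset (Sym2 V), IsSpanningTreeOf H S ↔ S ∈ Tr E := fun S => by
    rw [mem_Tr, IsSpanningTreeOf, ← hE, coe_subset]
    refine and_congr_right fun _ => and_congr_right fun _ => ⟨fun h u v huv => ?_,
      fun h u hu v hv => ?_⟩
    · have : H.Adj u v := by rw [← Subgraph.mem_edgeSet, ← hE]; exact_mod_cast huv
      exact h u (H.edge_vert this) v (H.edge_vert this.symm)
    · have : ∀ y : H.verts, H.coe.Reachable ⟨u, hu⟩ y → R S u y := fun y hy => by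
        rw [reachable_iff_reflTransGen] at hy
        induction hy with
        | refl => exact R.refl _ _
        | @tail x y _ h2 ih =>
          refine ih.trans (h _ _ ?_)
          have : s(x.1, y.1) ∈ H.edgeSet := h2
          rw [← hE] at this
          exact_mod_cast this
      exact this ⟨v, hv⟩ (hH.coe.preconnected _ _)
  ext x
  simp only [Set.mem_ofPred_eq, coe_image, Set.mem_image, mem_coe]
  constructor
  · intro hx
    have e1 : Subtype.val '' {e | x e = true} =
        ((E.filter fun e => e ∈ Subtype.val '' {e | x e = true} : Finset (Sym2 V)) :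
          Set (Sym2 V)) := by
      ext e
      simp only [coe_filter, Set.mem_ofPred_eq]
      refine ⟨fun h => ⟨?_, h⟩, fun h => h.2⟩
      have := hx.1 h
      rw [← hE] at this
      exact_mod_cast this
    refine ⟨_, (key _).1 (e1 ▸ hx), ?_⟩
    ext e
    have : e.1 ∈ E.filter (fun e => e ∈ Subtype.val '' {e | x e = true}) ↔ x e = true := by
      rw [← mem_coe, ← e1]
      simp
    simp only [conf, this]
    simp
  · rintro ⟨S, hS, rfl⟩
    have e1 : Subtype.val '' {e | conf G S e = true} = (S : Set (Sym2 V)) := by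
      ext e
      simp only [conf, decide_eq_true_eq, Set.mem_image, Set.mem_ofPred_eq, mem_coe]
      constructor
      · rintro ⟨e, he, rfl⟩; exact he
      · intro he; exact ⟨⟨e, hEG e ((mem_Tr.1 hS).1 he)⟩, he, rfl⟩
    rw [e1]
    exact (key S).2 hS

lemma conf_injOn {E : Finset (Sym2 V)} (hE : (E : Set (Sym2 V)) ⊆ G.edgeSet) :
    Set.InjOn (conf G) (Tr E) := by
  intro S hS S' hS' h
  have h1 := (mem_Tr.1 hS).1
  have h2 := (mem_Tr.1 hS').1
  ext e
  constructor
  · intro he
    have := congrFun h ⟨e, hE (h1 he)⟩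
    simpa [conf, he] using this
  · intro he
    have := congrFun h ⟨e, hE (h2 he)⟩
    simpa [conf, he] using this

lemma ust_real [Countable V] {H : G.Subgraph} (hH : H.Connected) {E : Finset (Sym2 V)}
    (hE : (E : Set (Sym2 V)) = H.edgeSet) (s : Set (G.edgeSet → Bool)) :
    (ust H).real s = (((Tr E).filter fun S => conf G S ∈ s).card : ℝ) / (Tr E).card := by
  have hinj := conf_injOn (G := G) (E := E) (hE ▸ H.edgeSet_subset)
  rw [ust, tree_set hH hE, Measure.real, ← uniformOn_inter_self (Finset.finite_toSet _)]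
  have : (((Tr E).image (conf G) : Finset (G.edgeSet → Bool)) : Set (G.edgeSet → Bool)) ∩ s =
      (((Tr E).filter fun S => conf G S ∈ s).image (conf G) : Finset (G.edgeSet → Bool)) := by
    ext x
    simp only [coe_image, Set.mem_inter_iff, Set.mem_image, mem_coe, mem_filter]
    constructor
    · rintro ⟨⟨S, hS, rfl⟩, hx⟩; exact ⟨S, ⟨hS, hx⟩, rfl⟩
    · rintro ⟨S, ⟨hS, hx⟩, rfl⟩; exact ⟨⟨S, hS, rfl⟩, hx⟩
  rw [this, uniformOn_apply_finset, inter_eq_right.2 (image_subset_image (filter_subset _ _)),
    card_image_of_injOn hinj, card_image_of_injOn (hinj.mono (by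
      exact_mod_cast filter_subset _ _))]
  simp

lemma ust_prob [Countable V] {H : G.Subgraph} (hH : H.Connected) {E : Finset (Sym2 V)}
    (hE : (E : Set (Sym2 V)) = H.edgeSet) : IsProbabilityMeasure (ust H) := by
  rw [ust, tree_set hH hE]
  exact isProbabilityMeasure_uniformOn (Finset.finite_toSet _)
    (by exact_mod_cast (Tr_nonempty E).image _)

lemma measurable_PhiE [Countable V] (G : SimpleGraph V) :
    Measurable (fun (U : V → unitInterval) (e : G.edgeSet) => Phi G U e) :=
  measurable_pi_lambda _ fun e =>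
    measurable_Phi (G := fun _ => G) (fun _ _ => MeasurableSet.const _) measurable_id e

theorem isFUSF_Phi [Countable V] (hc : G.Connected) (hG : LF G) :
    IsFUSF G ((iidUniform V).map fun U (e : G.edgeSet) => Phi G U e) := by
  have hprob : IsProbabilityMeasure ((iidUniform V).map fun U (e : G.edgeSet) => Phi G U e) :=
    Measure.isProbabilityMeasure_map (measurable_PhiE G).aemeasurable
  refine ⟨hprob, exists_exhaustion hc, fun H hH => ?_⟩
  obtain ⟨h1, h2, h3⟩ := hH
  set E : ℕ → Finset (Sym2 V) := fun n => (finite_edgeSet (h1 n).1).toFinset with hEdef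
  have hE : ∀ n, (E n : Set (Sym2 V)) = (H n).edgeSet := fun n => by simp [hEdef]
  have hex : Exh G (fun n => (H n).spanningCoe) E := by
    refine ⟨fun n => (H n).spanningCoe_le, hE, fun e he => ?_⟩
    rw [← Subgraph.edgeSet_top, ← h3, Subgraph.edgeSet_iSup, Set.mem_iUnion] at he
    obtain ⟨m, hm⟩ := he
    filter_upwards [eventually_ge_atTop m] with n hn using Subgraph.edgeSet_mono (h2 hn) hm
  let μ : ℕ → ProbabilityMeasure (G.edgeSet → Bool) := fun n => ⟨ust (H n), ust_prob (h1 n).2 (hE n)⟩
  let ν : ProbabilityMeasure (G.edgeSet → Bool) := ⟨_, hprob⟩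
  suffices h : Tendsto μ atTop (𝓝 ν) from ProbabilityMeasure.tendsto_iff_forall_integral_tendsto.1 h
  let S : Set (Set (G.edgeSet → Bool)) :=
    {s | ∃ (K : Finset G.edgeSet) (a : G.edgeSet → Bool), s = {x | ∀ e ∈ K, x e = a e}}
  have hopen : ∀ s ∈ S, IsOpen s := by
    rintro _ ⟨K, a, rfl⟩
    have : {x : G.edgeSet → Bool | ∀ e ∈ K, x e = a e} = ⋂ e ∈ K, (fun x => x e) ⁻¹' {a e} := by
      ext x; simp
    rw [this]
    exact isOpen_biInter_finset fun e _ => (isOpen_discrete _).preimage (continuous_apply e)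
  refine IsPiSystem.tendsto_probabilityMeasure_of_tendsto_of_mem (S := S) ?_
    (fun s hs => (hopen s hs).measurableSet) ?_ ?_
  · rintro _ ⟨K, a, rfl⟩ _ ⟨K', a', rfl⟩ ⟨x, hx, hx'⟩
    refine ⟨K ∪ K', x, ?_⟩
    ext y
    simp only [Set.mem_inter_iff, Set.mem_ofPred_eq, mem_union]
    constructor
    · rintro ⟨hy, hy'⟩ e (he | he)
      · rw [hy e he, hx e he]
      · rw [hy' e he, hx' e he]
    · intro hy
      exact ⟨fun e he => by rw [hy e (Or.inl he), hx e he],
        fun e he => by rw [hy e (Or.inr he), hx' e he]⟩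
  · intro u hu x hx
    obtain ⟨I, w, hw, hI⟩ := isOpen_pi_iff.1 hu x hx
    refine ⟨_, ⟨I, x, rfl⟩, (hopen _ ⟨I, x, rfl⟩).mem_nhds fun _ _ => rfl, fun y hy => hI ?_⟩
    intro e he
    rw [hy e he]
    exact (hw e he).2
  · rintro _ ⟨K, a, rfl⟩
    rw [← NNReal.tendsto_coe]
    simp only [← ProbabilityMeasure.measureReal_eq_coe_coeFn]
    let a' : Sym2 V → Bool := fun e => if h : e ∈ G.edgeSet then a ⟨e, h⟩ else false
    have ha' : ∀ e : G.edgeSet, a' e = a e := fun e => by simp [a']
    have key := tendsto_cyl hG hex (K := K.image Subtype.val) (by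
      intro e he
      obtain ⟨e, -, rfl⟩ := mem_image.1 (mem_coe.1 he)
      exact e.2) a'
    convert key using 2 with n
    · change (ust (H n)).real _ = _
      rw [ust_real (h1 n).2 (hE n)]
      congr 3
      ext T
      refine (@mem_filter _ _ (_) _ _).trans (Iff.trans ?_ (@mem_filter _ _ (_) _ _).symm)
      simp only [Set.mem_ofPred_eq, forall_mem_image, ha', conf]
      refine and_congr_right fun _ => forall_congr' fun e => imp_congr_right fun _ => ?_
      cases a e <;> simp
    · change ((iidUniform V).map fun U (e : G.edgeSet) => Phi G U e).real _ = _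
      rw [map_measureReal_apply (measurable_PhiE G) (hopen _ ⟨K, a, rfl⟩).measurableSet]
      congr 1
      ext U
      simp only [Set.mem_preimage, Set.mem_ofPred_eq, forall_mem_image, ha']

end Vale.Agent.P143
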