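import Mathlib

/-! The logistic noise and its likelihood ratios. -/

namespace Vale.Agent.P143

open MeasureTheory Real Filter Topology Finset

/-- logistic density -/
noncomputable def ph (u : ℝ) : ℝ := sigmoid u * (1 - sigmoid u)

lemma ph_pos (u : ℝ) : 0 < ph u := mul_pos (sigmoid_pos u) (by linarith [sigmoid_lt_one u])

lemma ph_neg (u : ℝ) : ph (-u) = ph u := by
  simp only [ph, sigmoid_neg]; ring

lemma continuous_ph : Continuous ph := by
  unfold ph
  exact continuous_sigmoid.mul (continuous_const.sub continuous_sigmoid)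

lemma integrable_ph : Integrable ph := by
  have h1 : IntegrableOn ph (Set.Ioi 0) :=
    integrableOn_Ioi_deriv_of_nonneg' (g := sigmoid) (fun x _ => hasDerivAt_sigmoid x)
      (fun x _ => (ph_pos x).le) tendsto_sigmoid_atTop
  have h2 : IntegrableOn ph (Set.Iio 0) := by
    have : IntegrableOn (ph ∘ fun x : ℝ => -x) ((fun x : ℝ => -x) ⁻¹' Set.Ioi 0) :=
      ((Measure.measurePreserving_neg (volume : Measure ℝ)).integrableOn_comp_preimage
        (Homeomorph.neg ℝ).measurableEmbedding).2 h1
    have e1 : (ph ∘ fun x : ℝ => -x) = ph := by ext x; simp [ph_neg]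
    have e2 : ((fun x : ℝ => -x) ⁻¹' Set.Ioi 0) = Set.Iio 0 := by ext x; simp
    rwa [e1, e2] at this
  rw [← integrableOn_univ, ← Set.Iic_union_Ioi (a := (0 : ℝ)), integrableOn_union]
  exact ⟨(integrableOn_Iic_iff_integrableOn_Iio (f := ph) (b := 0)).2 h2, h1⟩

lemma integral_ph : ∫ u, ph u = 1 := by
  rw [integral_of_hasDerivAt_of_tendsto (f := sigmoid) (f' := ph) hasDerivAt_sigmoid integrable_ph
    tendsto_sigmoid_atBot tendsto_sigmoid_atTop]
  simp

/-- logistic distribution -/
noncomputable def nu : Measure ℝ := volume.withDensity (fun u => ENNReal.ofReal (ph u))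

instance : IsProbabilityMeasure nu := ⟨by
  rw [nu, withDensity_apply _ MeasurableSet.univ, Measure.restrict_univ,
    ← ofReal_integral_eq_lintegral_ofReal integrable_ph (.of_forall fun u => (ph_pos u).le),
    integral_ph]
  simp⟩

instance : NullSingletonClass nu := by
  unfold nu; infer_instance

lemma pi_nu (E : Type*) [Fintype E] : Measure.pi (fun _ : E => nu) =
    volume.withDensity (fun y : E → ℝ => ENNReal.ofReal (∏ i, ph (y i))) := by
  classical
  refine Measure.pi_eq fun s hs => ?_
  rw [withDensity_apply _ (MeasurableSet.univ_pi hs), ← lintegral_indicator (MeasurableSet.univ_pi hs)]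
  have h1 : ∀ y : E → ℝ, (Set.pi Set.univ s).indicator
      (fun y : E → ℝ => ENNReal.ofReal (∏ i, ph (y i))) y =
      ENNReal.ofReal (∏ i, (s i).indicator ph (y i)) := by
    intro y
    by_cases hy : y ∈ Set.pi Set.univ s
    · rw [Set.indicator_of_mem hy]
      congr 1
      exact prod_congr rfl fun i _ => (Set.indicator_of_mem (hy i trivial) _).symm
    · rw [Set.indicator_of_notMem hy]
      simp only [Set.mem_pi, Set.mem_univ, true_implies, not_forall] at hy
      obtain ⟨i, hi⟩ := hy
      rw [prod_eq_zero (mem_univ i) (Set.indicator_of_notMem hi _)]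
      simp
  simp only [h1]
  have hnn : ∀ i u, 0 ≤ (s i).indicator ph u := fun i u =>
    Set.indicator_nonneg (fun u _ => (ph_pos u).le) u
  have hint : Integrable (fun y : E → ℝ => ∏ i, (s i).indicator ph (y i)) :=
    Integrable.fintype_prod (f := fun i => (s i).indicator ph) (μ := fun _ => volume)
      fun i => integrable_ph.indicator (hs i)
  rw [← ofReal_integral_eq_lintegral_ofReal hint
    (.of_forall fun y => prod_nonneg fun i _ => hnn i _),
    integral_fintype_prod_volume_eq_prod (fun i => (s i).indicator ph),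
    ENNReal.ofReal_prod_of_nonneg (fun i _ => integral_nonneg (hnn i))]
  refine prod_congr rfl fun i _ => ?_
  rw [nu, withDensity_apply _ (hs i), integral_indicator (hs i),
    ofReal_integral_eq_lintegral_ofReal integrable_ph.integrableOn
      (.of_forall fun u => (ph_pos u).le)]

lemma integral_pi_nu {E : Type*} [Fintype E] (F : (E → ℝ) → ℝ) :
    ∫ y, F y ∂(Measure.pi (fun _ : E => nu)) = ∫ y : E → ℝ, (∏ i, ph (y i)) * F y := by
  have hm : Measurable (fun y : E → ℝ => ∏ i, ph (y i)) := by
    have := continuous_ph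
    fun_prop
  rw [pi_nu, integral_withDensity_eq_integral_toReal_smul hm.ennreal_ofReal
    (.of_forall fun _ => ENNReal.ofReal_lt_top)]
  refine integral_congr_ae (.of_forall fun y => ?_)
  simp only [smul_eq_mul]
  rw [ENNReal.toReal_ofReal (prod_nonneg fun i _ => (ph_pos _).le)]

/-- likelihood ratio of a shift by `t` -/
noncomputable def cnd (t y : ℝ) : ℝ := ph (y - t) / ph y

lemma cnd_pos (t y : ℝ) : 0 < cnd t y := div_pos (ph_pos _) (ph_pos _)

lemma cnd_zero (y : ℝ) : cnd 0 y = 1 := by
  simp [cnd, (ph_pos y).ne']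

lemma continuous_cnd (t : ℝ) : Continuous (cnd t) := by
  unfold cnd
  exact (continuous_ph.comp (continuous_id.sub continuous_const)).div continuous_ph
    fun y => (ph_pos y).ne'

lemma integral_shift {E : Type*} [Fintype E] (F : (E → ℝ) → ℝ) (s : E → ℝ) :
    ∫ z, F (z + s) ∂(Measure.pi (fun _ : E => nu)) =
      ∫ y, F y * ∏ i, cnd (s i) (y i) ∂(Measure.pi (fun _ : E => nu)) := by
  rw [integral_pi_nu, integral_pi_nu,
    ← integral_sub_right_eq_self (fun y : E → ℝ => (∏ i, ph (y i)) * F (y + s)) s]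
  refine integral_congr_ae (.of_forall fun y => ?_)
  simp only [sub_add_cancel, Pi.sub_apply, cnd]
  rw [prod_div_distrib]
  have : ∏ i, ph (y i) ≠ 0 := (prod_pos fun i _ => ph_pos _).ne'
  field_simp

lemma sigmoid_le_exp_mul {u v : ℝ} (h : v ≤ u) : sigmoid u ≤ exp (u - v) * sigmoid v := by
  simp only [sigmoid_def]
  have h1 : 0 < exp (-u) := exp_pos _
  have h2 : 0 < exp (-v) := exp_pos _
  have h3 : 1 ≤ exp (u - v) := one_le_exp (by linarith)
  have h4 : exp (u - v) * exp (-u) = exp (-v) := by rw [← exp_add]; congr 1; ring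
  rw [← div_eq_mul_inv, inv_eq_one_div, div_le_div_iff₀ (by positivity) (by positivity)]
  nlinarith

lemma ph_le (u v : ℝ) : ph u ≤ exp |u - v| * ph v := by
  have key : ∀ u v : ℝ, v ≤ u → ph u ≤ exp (u - v) * ph v := by
    intro u v h
    have h1 := sigmoid_le_exp_mul h
    have h2 : sigmoid v ≤ sigmoid u := sigmoid_le h
    have h3 := sigmoid_lt_one u
    have h4 := sigmoid_pos v
    unfold ph
    rw [← mul_assoc]
    exact mul_le_mul h1 (by linarith) (by linarith) (by positivity)
  rcases le_total v u with h | h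
  · rw [abs_of_nonneg (by linarith)]; exact key u v h
  · rw [abs_of_nonpos (by linarith), ← ph_neg u, ← ph_neg v]
    have := key (-u) (-v) (by linarith)
    convert this using 3; ring

lemma cnd_le {t t' y y' ρ : ℝ} (h : |y - y'| ≤ ρ) :
    cnd t y ≤ exp (|t - t'| + 2 * ρ) * cnd t' y' := by
  unfold cnd
  have h1 := ph_le (y - t) (y' - t')
  have h2 := ph_le y' y
  have h3 : |y - t - (y' - t')| ≤ |t - t'| + ρ := by
    have : y - t - (y' - t') = (y - y') - (t - t') := by ring
    rw [this]
    exact (abs_sub _ _).trans (by linarith)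
  have h4 : |y' - y| ≤ ρ := by rwa [abs_sub_comm]
  have h5 : ph (y - t) ≤ exp (|t - t'| + ρ) * ph (y' - t') :=
    h1.trans (mul_le_mul_of_nonneg_right (exp_le_exp.2 h3) (ph_pos _).le)
  have h6 : ph y' ≤ exp ρ * ph y :=
    h2.trans (mul_le_mul_of_nonneg_right (exp_le_exp.2 h4) (ph_pos _).le)
  rw [← mul_div_assoc, div_le_div_iff₀ (ph_pos _) (ph_pos _)]
  have e : exp (|t - t'| + 2 * ρ) = exp (|t - t'| + ρ) * exp ρ := by
    rw [← exp_add]; congr 1; ring
  rw [e]
  calc ph (y - t) * ph y' ≤ (exp (|t - t'| + ρ) * ph (y' - t')) * (exp ρ * ph y) :=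
        mul_le_mul h5 h6 (ph_pos _).le (by have := ph_pos (y' - t'); positivity)
    _ = _ := by ring

lemma cnd_le_exp (t y : ℝ) : cnd t y ≤ exp |t| := by
  have := cnd_le (t := t) (t' := 0) (y := y) (y' := y) (ρ := 0) (by simp)
  simpa [cnd_zero] using this

lemma cnd_le_mul (t y y' : ℝ) : cnd t y ≤ exp |t| * exp |t| * cnd t y' := by
  have h1 := cnd_le_exp t y
  have h2 := cnd_le (t := 0) (t' := t) (y := y') (y' := y') (ρ := 0) (by simp)
  simp only [cnd_zero, zero_sub, abs_neg, mul_zero, add_zero] at h2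
  have := exp_pos |t|
  nlinarith

lemma cnd_eq (t y : ℝ) : cnd t y = exp t * ((sigmoid y + exp t * (1 - sigmoid y))⁻¹ *
    (sigmoid y + exp t * (1 - sigmoid y))⁻¹) := by
  unfold cnd ph
  have h1 : 0 < exp (-y) := exp_pos _
  have h2 : 0 < exp t := exp_pos _
  have h3 : exp (-(y - t)) = exp (-y) * exp t := by rw [← exp_add]; congr 1; ring
  have h4 : 1 - (1 + exp (-y))⁻¹ = exp (-y) / (1 + exp (-y)) := by field_simp; ring
  have h5 : 1 - (1 + exp (-y) * exp t)⁻¹ = exp (-y) * exp t / (1 + exp (-y) * exp t) := by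
    field_simp; ring
  simp only [sigmoid_def, h3, h4, h5]
  field_simp

lemma abs_sigmoid_sub_le (u v : ℝ) : |sigmoid u - sigmoid v| ≤ |u - v| / 4 := by
  have := (convex_univ (𝕜 := ℝ) (E := ℝ)).norm_image_sub_le_of_norm_hasDerivWithin_le
    (f := sigmoid) (f' := fun x => sigmoid x * (1 - sigmoid x)) (C := 1 / 4)
    (fun x _ => (hasDerivAt_sigmoid x).hasDerivWithinAt) (fun x _ => ?_)
    (Set.mem_univ v) (Set.mem_univ u)
  · simp only [norm_eq_abs] at this
    linarith
  · have := (ph_pos x).le
    unfold ph at this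
    rw [norm_eq_abs, abs_of_nonneg this]
    nlinarith [sq_nonneg (sigmoid x - 1 / 2)]

end Vale.Agent.P143
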