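import Vale.Agent.P143.Noise

/-! Bounded functions with bounded Lipschitz derivative. -/

namespace Vale.Agent.P143

open Real Filter Topology Finset

variable {X Y : Type*} [NormedAddCommGroup X] [NormedSpace ℝ X]
  [NormedAddCommGroup Y] [NormedSpace ℝ Y]

/-- quantitative class of bounded functions with bounded Lipschitz derivative -/
structure C11 (M A B : ℝ) (g : X → Y) : Prop where
  bd : ∀ y, ‖g y‖ ≤ M
  diff : Differentiable ℝ g
  d1 : ∀ y, ‖fderiv ℝ g y‖ ≤ A
  d2 : ∀ y y', ‖fderiv ℝ g y - fderiv ℝ g y'‖ ≤ B * ‖y - y'‖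
  hB : 0 ≤ B

namespace C11
variable {M A B : ℝ} {g : X → Y}

lemma hM (h : C11 M A B g) : 0 ≤ M := (norm_nonneg _).trans (h.bd 0)
lemma hA (h : C11 M A B g) : 0 ≤ A := (norm_nonneg _).trans (h.d1 0)

lemma mono (h : C11 M A B g) {M' A' B' : ℝ} (h1 : M ≤ M') (h2 : A ≤ A') (h3 : B ≤ B') :
    C11 M' A' B' g :=
  ⟨fun y => (h.bd y).trans h1, h.diff, fun y => (h.d1 y).trans h2,
    fun y y' => (h.d2 y y').trans (mul_le_mul_of_nonneg_right h3 (norm_nonneg _)), h.hB.trans h3⟩

lemma lip (h : C11 M A B g) (y y' : X) : ‖g y - g y'‖ ≤ A * ‖y - y'‖ :=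
  (convex_univ (𝕜 := ℝ) (E := X)).norm_image_sub_le_of_norm_fderiv_le
    (fun x _ => h.diff x) (fun x _ => h.d1 x) (Set.mem_univ _) (Set.mem_univ _)

lemma taylor (h : C11 M A B g) (y w : X) :
    ‖g (y + w) - g y - fderiv ℝ g y w‖ ≤ B * ‖w‖ ^ 2 := by
  have := (convex_closedBall y ‖w‖).norm_image_sub_le_of_norm_fderiv_le' (𝕜 := ℝ) (f := g)
    (φ := fderiv ℝ g y) (C := B * ‖w‖) (x := y) (y := y + w) (fun x _ => h.diff x)
    (fun x hx => (h.d2 x y).trans (mul_le_mul_of_nonneg_left (by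
      simpa [dist_eq_norm] using hx) h.hB)) (by simp) (by simp [dist_eq_norm])
  simp only [add_sub_cancel_left] at this
  calc _ ≤ _ := this
    _ = _ := by ring

lemma step {M' L L2 : ℝ} {v : X → X} (h : C11 M A B g) (hv : C11 M' L L2 v) {s : ℝ}
    (hs : 0 ≤ s) : C11 M (A * (1 + s * L)) (B * (1 + s * L) ^ 2 + A * s * L2)
      (fun y => g (y + s • v y)) := by
  have hL := hv.hA
  have hP : ∀ y, HasFDerivAt (fun y => y + s • v y)
      (ContinuousLinearMap.id ℝ X + s • fderiv ℝ v y) y := fun y =>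
    (hasFDerivAt_id y).add ((hv.diff y).hasFDerivAt.const_smul s)
  have hD : ∀ y, HasFDerivAt (fun y => g (y + s • v y))
      ((fderiv ℝ g (y + s • v y)).comp (ContinuousLinearMap.id ℝ X + s • fderiv ℝ v y)) y :=
    fun y => (h.diff (y + s • v y)).hasFDerivAt.comp y (hP y)
  have hn : ∀ y, ‖ContinuousLinearMap.id ℝ X + s • fderiv ℝ v y‖ ≤ 1 + s * L := fun y => by
    refine (norm_add_le _ _).trans (add_le_add ContinuousLinearMap.norm_id_le ?_)
    rw [norm_smul, norm_eq_abs, abs_of_nonneg hs]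
    exact mul_le_mul_of_nonneg_left (hv.d1 y) hs
  have hq : 0 ≤ 1 + s * L := by positivity
  refine ⟨fun y => h.bd _, fun y => (hD y).differentiableAt, fun y => ?_, fun y y' => ?_, ?_⟩
  · rw [(hD y).fderiv]
    exact (ContinuousLinearMap.opNorm_comp_le _ _).trans
      (mul_le_mul (h.d1 _) (hn y) (norm_nonneg _) h.hA)
  · rw [(hD y).fderiv, (hD y').fderiv]
    set a := fderiv ℝ g (y + s • v y)
    set a' := fderiv ℝ g (y' + s • v y')
    set b := ContinuousLinearMap.id ℝ X + s • fderiv ℝ v y with hb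
    set b' := ContinuousLinearMap.id ℝ X + s • fderiv ℝ v y' with hb'
    have e : a.comp b - a'.comp b' = (a - a').comp b + a'.comp (b - b') := by
      simp [ContinuousLinearMap.sub_comp, ContinuousLinearMap.comp_sub]
    have h1 : ‖y + s • v y - (y' + s • v y')‖ ≤ (1 + s * L) * ‖y - y'‖ := by
      have : y + s • v y - (y' + s • v y') = (y - y') + s • (v y - v y') := by
        rw [smul_sub]; abel
      rw [this]
      refine (norm_add_le _ _).trans ?_
      rw [norm_smul, norm_eq_abs, abs_of_nonneg hs]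
      have := mul_le_mul_of_nonneg_left (hv.lip y y') hs
      nlinarith
    have h2 : ‖a - a'‖ ≤ B * ((1 + s * L) * ‖y - y'‖) :=
      (h.d2 _ _).trans (mul_le_mul_of_nonneg_left h1 h.hB)
    have h3 : ‖b - b'‖ ≤ s * (L2 * ‖y - y'‖) := by
      have : b - b' = s • (fderiv ℝ v y - fderiv ℝ v y') := by
        rw [hb, hb', smul_sub]; abel
      rw [this, norm_smul, norm_eq_abs, abs_of_nonneg hs]
      exact mul_le_mul_of_nonneg_left (hv.d2 y y') hs
    rw [e]
    refine (norm_add_le _ _).trans ?_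
    have h4 := (ContinuousLinearMap.opNorm_comp_le (a - a') b).trans
      (mul_le_mul h2 (hn y) (norm_nonneg _) (by have := h.hB; positivity))
    have h5 := (ContinuousLinearMap.opNorm_comp_le a' (b - b')).trans
      (mul_le_mul (h.d1 _) h3 (norm_nonneg _) h.hA)
    calc _ ≤ _ := add_le_add h4 h5
      _ = _ := by ring
  · have := h.hB; have := h.hA; have := hv.hB; positivity

lemma comp_clm {Z : Type*} [NormedAddCommGroup Z] [NormedSpace ℝ Z] (h : C11 M A B g)
    (l : Z →L[ℝ] X) : C11 M (A * ‖l‖) (B * ‖l‖ * ‖l‖) (fun z => g (l z)) := by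
  have hD : ∀ z, HasFDerivAt (fun z => g (l z)) ((fderiv ℝ g (l z)).comp l) z :=
    fun z => (h.diff (l z)).hasFDerivAt.comp z l.hasFDerivAt
  refine ⟨fun y => h.bd _, fun y => (hD y).differentiableAt, fun y => ?_, fun y y' => ?_, ?_⟩
  · rw [(hD y).fderiv]
    exact (ContinuousLinearMap.opNorm_comp_le _ _).trans
      (mul_le_mul_of_nonneg_right (h.d1 _) (norm_nonneg _))
  · rw [(hD y).fderiv, (hD y').fderiv, ← ContinuousLinearMap.sub_comp]
    refine (ContinuousLinearMap.opNorm_comp_le _ _).trans ?_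
    have h1 := h.d2 (l y) (l y')
    rw [← map_sub] at h1
    have h2 := mul_le_mul_of_nonneg_left (l.le_opNorm (y - y')) h.hB
    calc _ ≤ B * (‖l‖ * ‖y - y'‖) * ‖l‖ := mul_le_mul_of_nonneg_right (h1.trans h2) (norm_nonneg _)
      _ = _ := by ring
  · have := h.hB; positivity

lemma add {M' A' B' : ℝ} {g' : X → Y} (h : C11 M A B g) (h' : C11 M' A' B' g') :
    C11 (M + M') (A + A') (B + B') (fun y => g y + g' y) := by
  have hD : ∀ y, HasFDerivAt (fun y => g y + g' y) (fderiv ℝ g y + fderiv ℝ g' y) y :=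
    fun y => (h.diff y).hasFDerivAt.add (h'.diff y).hasFDerivAt
  refine ⟨fun y => (norm_add_le _ _).trans (add_le_add (h.bd y) (h'.bd y)),
    fun y => (hD y).differentiableAt, fun y => ?_, fun y y' => ?_, add_nonneg h.hB h'.hB⟩
  · rw [(hD y).fderiv]
    exact (norm_add_le _ _).trans (add_le_add (h.d1 y) (h'.d1 y))
  · rw [(hD y).fderiv, (hD y').fderiv, add_sub_add_comm, add_mul]
    exact (norm_add_le _ _).trans (add_le_add (h.d2 y y') (h'.d2 y y'))

lemma smul_diff_le {a a' : ℝ} {p p' : X →L[ℝ] ℝ} {M A B A' r : ℝ} (ha : |a| ≤ M)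
    (haa : |a - a'| ≤ A * r) (hp : ‖p'‖ ≤ A') (hpp : ‖p - p'‖ ≤ B * r) :
    ‖a • p - a' • p'‖ ≤ (M * B + A * A') * r := by
  have e : a • p - a' • p' = a • (p - p') + (a - a') • p' := by
    ext w; simp; ring
  rw [e]
  refine (norm_add_le _ _).trans ?_
  rw [norm_smul, norm_smul, norm_eq_abs, norm_eq_abs]
  have h1 := mul_le_mul ha hpp (norm_nonneg _) ((abs_nonneg _).trans ha)
  have h2 := mul_le_mul haa hp (norm_nonneg _) ((abs_nonneg _).trans haa)
  calc _ ≤ _ := add_le_add h1 h2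
    _ = _ := by ring

lemma mul {M' A' B' : ℝ} {g g' : X → ℝ} (h : C11 M A B g) (h' : C11 M' A' B' g') :
    C11 (M * M') (M * A' + M' * A) ((M * B' + A * A') + (M' * B + A' * A))
      (fun y => g y * g' y) := by
  have hD : ∀ y, HasFDerivAt (fun y => g y * g' y)
      (g y • fderiv ℝ g' y + g' y • fderiv ℝ g y) y :=
    fun y => (h.diff y).hasFDerivAt.mul (h'.diff y).hasFDerivAt
  refine ⟨fun y => ?_, fun y => (hD y).differentiableAt, fun y => ?_, fun y y' => ?_, ?_⟩
  · rw [norm_mul]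
    exact mul_le_mul (h.bd y) (h'.bd y) (norm_nonneg _) h.hM
  · rw [(hD y).fderiv]
    refine (norm_add_le _ _).trans ?_
    rw [norm_smul, norm_smul]
    exact add_le_add (mul_le_mul (h.bd y) (h'.d1 y) (norm_nonneg _) h.hM)
      (mul_le_mul (h'.bd y) (h.d1 y) (norm_nonneg _) h'.hM)
  · rw [(hD y).fderiv, (hD y').fderiv, add_sub_add_comm, add_mul]
    exact (norm_add_le _ _).trans (add_le_add
      (smul_diff_le (h.bd y) (h.lip y y') (h'.d1 y') (h'.d2 y y'))
      (smul_diff_le (h'.bd y) (h'.lip y y') (h.d1 y') (h.d2 y y')))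
  · have := h.hM; have := h.hA; have := h.hB; have := h'.hM; have := h'.hA; have := h'.hB
    positivity

lemma inv {g : X → ℝ} (h : C11 M A B g) {ε : ℝ} (hε : 0 < ε) (hg : ∀ y, ε ≤ g y) :
    C11 ε⁻¹ (ε⁻¹ ^ 2 * A) (ε⁻¹ ^ 2 * B + (2 * ε⁻¹ ^ 3 * A) * A) (fun y => (g y)⁻¹) := by
  have hp : ∀ y, 0 < g y := fun y => hε.trans_le (hg y)
  have hD : ∀ y, HasFDerivAt (fun y => (g y)⁻¹) ((-((g y)⁻¹ ^ 2)) • fderiv ℝ g y) y := fun y => by
    have := (hasDerivAt_inv (hp y).ne').comp_hasFDerivAt y (h.diff y).hasFDerivAt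
    rw [inv_pow]
    exact this
  have hi : ∀ y, (g y)⁻¹ ≤ ε⁻¹ := fun y => inv_anti₀ hε (hg y)
  have hi0 : ∀ y, 0 < (g y)⁻¹ := fun y => inv_pos.2 (hp y)
  have hi2 : ∀ y, |-((g y)⁻¹ ^ 2)| ≤ ε⁻¹ ^ 2 := fun y => by
    rw [abs_neg, abs_of_nonneg (by positivity)]
    exact pow_le_pow_left₀ (hi0 y).le (hi y) 2
  refine ⟨fun y => ?_, fun y => (hD y).differentiableAt, fun y => ?_, fun y y' => ?_, ?_⟩
  · rw [norm_eq_abs, abs_of_pos (hi0 y)]; exact hi y
  · rw [(hD y).fderiv, norm_smul]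
    exact mul_le_mul (hi2 y) (h.d1 y) (norm_nonneg _) (by positivity)
  · rw [(hD y).fderiv, (hD y').fderiv]
    refine smul_diff_le (hi2 y) ?_ (h.d1 y') (h.d2 y y')
    have e : -((g y)⁻¹ ^ 2) - -((g y')⁻¹ ^ 2) =
        ((g y)⁻¹ + (g y')⁻¹) * ((g y)⁻¹ * (g y')⁻¹) * (g y - g y') := by
      have := (hp y).ne'; have := (hp y').ne'
      field_simp; ring
    rw [e, abs_mul, abs_of_pos (by have := hi0 y; have := hi0 y'; positivity)]
    have h1 : ((g y)⁻¹ + (g y')⁻¹) * ((g y)⁻¹ * (g y')⁻¹) ≤ (ε⁻¹ + ε⁻¹) * (ε⁻¹ * ε⁻¹) :=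
      mul_le_mul (add_le_add (hi y) (hi y')) (mul_le_mul (hi y) (hi y') (hi0 y').le
        (by positivity)) (by have := hi0 y; have := hi0 y'; positivity) (by positivity)
    calc _ ≤ (ε⁻¹ + ε⁻¹) * (ε⁻¹ * ε⁻¹) * (A * ‖y - y'‖) :=
          mul_le_mul h1 (h.lip y y') (abs_nonneg _) (by positivity)
      _ = _ := by ring
  · have := h.hA; have := h.hB; positivity

lemma const (a : Y) : C11 ‖a‖ 0 0 (fun _ : X => a) :=
  ⟨fun _ => le_rfl, differentiable_const a, fun y => by simp, fun y y' => by simp, le_rfl⟩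

lemma sig (a : ℝ) : C11 1 1 1 (fun u : ℝ => sigmoid (u + a)) := by
  have hD : ∀ u, HasFDerivAt (fun u : ℝ => sigmoid (u + a))
      (ph (u + a) • ContinuousLinearMap.id ℝ ℝ) u := fun u => by
    have h1 : HasFDerivAt (fun u : ℝ => u + a) (ContinuousLinearMap.id ℝ ℝ) u :=
      (hasFDerivAt_id u).add_const a
    have h2 := HasDerivAt.comp_hasFDerivAt (h₂ := sigmoid) (f := fun u : ℝ => u + a) u
      (hasDerivAt_sigmoid (u + a)) h1
    exact h2
  have hph : ∀ u, |ph u| ≤ 1 := fun u => by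
    rw [abs_of_pos (ph_pos u), ph]
    nlinarith [sigmoid_pos u, sigmoid_lt_one u]
  refine ⟨fun y => ?_, fun y => (hD y).differentiableAt, fun y => ?_, fun y y' => ?_, zero_le_one⟩
  · rw [norm_eq_abs, abs_of_pos (sigmoid_pos _)]; exact sigmoid_le_one _
  · rw [(hD y).fderiv, norm_smul]
    exact mul_le_one₀ (hph _) (norm_nonneg _) ContinuousLinearMap.norm_id_le
  · rw [(hD y).fderiv, (hD y').fderiv, ← sub_smul, norm_smul, one_mul]
    refine (mul_le_of_le_one_right (norm_nonneg _) ContinuousLinearMap.norm_id_le).trans ?_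
    have e : ph (y + a) - ph (y' + a) = (sigmoid (y + a) - sigmoid (y' + a)) *
        (1 - sigmoid (y + a) - sigmoid (y' + a)) := by unfold ph; ring
    rw [norm_eq_abs, norm_eq_abs, e, abs_mul]
    have h1 := abs_sigmoid_sub_le (y + a) (y' + a)
    rw [add_sub_add_right_eq_sub] at h1
    have h2 : |1 - sigmoid (y + a) - sigmoid (y' + a)| ≤ 1 := by
      rw [abs_le]
      have := sigmoid_pos (y + a); have := sigmoid_pos (y' + a)
      have := sigmoid_lt_one (y + a); have := sigmoid_lt_one (y' + a)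
      constructor <;> linarith
    have := abs_nonneg (y - y')
    calc _ ≤ |y - y'| / 4 * 1 := mul_le_mul h1 h2 (abs_nonneg _) (by positivity)
      _ ≤ _ := by linarith

lemma pi {E : Type*} [Fintype E] {v : X → E → ℝ} (hM : 0 ≤ M) (hA : 0 ≤ A) (hB : 0 ≤ B)
    (h : ∀ i, C11 M A B (fun y => v y i)) : C11 M A B v := by
  have hd : Differentiable ℝ v := differentiable_pi.2 fun i => (h i).diff
  have hf : ∀ y w i, fderiv ℝ v y w i = fderiv ℝ (fun y => v y i) y w := fun y w i => by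
    rw [fderiv_pi (fun i => (h i).diff y)]; rfl
  refine ⟨fun y => (pi_norm_le_iff_of_nonneg hM).2 fun i => (h i).bd y, hd, fun y => ?_,
    fun y y' => ?_, hB⟩
  · refine ContinuousLinearMap.opNorm_le_bound _ hA fun w => ?_
    refine (pi_norm_le_iff_of_nonneg (by positivity)).2 fun i => ?_
    rw [hf]
    exact (ContinuousLinearMap.le_opNorm _ _).trans
      (mul_le_mul_of_nonneg_right ((h i).d1 y) (norm_nonneg _))
  · refine ContinuousLinearMap.opNorm_le_bound _ (by positivity) fun w => ?_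
    refine (pi_norm_le_iff_of_nonneg (by positivity)).2 fun i => ?_
    rw [_root_.sub_apply, Pi.sub_apply, hf, hf, ← _root_.sub_apply]
    exact (ContinuousLinearMap.le_opNorm _ _).trans
      (mul_le_mul_of_nonneg_right ((h i).d2 y y') (norm_nonneg _))

end C11

/-- uniformly regular families -/
def Nice {τ : Type*} (g : τ → X → Y) : Prop :=
  ∃ M A B, 0 ≤ M ∧ 0 ≤ A ∧ 0 ≤ B ∧ ∀ t, C11 M A B (g t)

namespace Nice
variable {τ : Type*}

lemma const {a : τ → ℝ} {M : ℝ} (h : ∀ t, |a t| ≤ M) : Nice (fun t (_ : X) => a t) :=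
  ⟨|M|, 0, 0, abs_nonneg _, le_rfl, le_rfl, fun t =>
    (C11.const (a t)).mono ((h t).trans (le_abs_self _)) le_rfl le_rfl⟩

lemma add {g g' : τ → X → ℝ} (h : Nice g) (h' : Nice g') : Nice (fun t y => g t y + g' t y) := by
  obtain ⟨M, A, B, h1, h2, h3, h⟩ := h
  obtain ⟨M', A', B', h1', h2', h3', h'⟩ := h'
  exact ⟨_, _, _, by positivity, by positivity, by positivity, fun t => (h t).add (h' t)⟩

lemma mul {g g' : τ → X → ℝ} (h : Nice g) (h' : Nice g') : Nice (fun t y => g t y * g' t y) := by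
  obtain ⟨M, A, B, h1, h2, h3, h⟩ := h
  obtain ⟨M', A', B', h1', h2', h3', h'⟩ := h'
  exact ⟨_, _, _, by positivity, by positivity, by positivity, fun t => (h t).mul (h' t)⟩

lemma inv {g : τ → X → ℝ} (h : Nice g) {ε : ℝ} (hε : 0 < ε) (hg : ∀ t y, ε ≤ g t y) :
    Nice (fun t y => (g t y)⁻¹) := by
  obtain ⟨M, A, B, h1, h2, h3, h⟩ := h
  exact ⟨_, _, _, by positivity, by positivity, by positivity, fun t => (h t).inv hε (hg t)⟩

lemma sub {g g' : τ → X → ℝ} (h : Nice g) (h' : Nice g') : Nice (fun t y => g t y - g' t y) := by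
  have := h.add ((const (X := X) (a := fun _ : τ => (-1 : ℝ)) (M := 1) (by simp)).mul h')
  simpa [sub_eq_add_neg] using this

lemma sum {ι : Type*} (s : Finset ι) {g : ι → τ → X → ℝ} (h : ∀ i ∈ s, Nice (g i)) :
    Nice (fun t y => ∑ i ∈ s, g i t y) := by
  classical
  induction s using Finset.induction_on with
  | empty => simpa using const (X := X) (a := fun _ : τ => (0 : ℝ)) (M := 0) (by simp)
  | insert a s ha ih =>
    simp only [sum_insert ha]
    exact (h a (mem_insert_self _ _)).add (ih fun i hi => h i (mem_insert_of_mem hi))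

lemma prod {ι : Type*} (s : Finset ι) {g : ι → τ → X → ℝ} (h : ∀ i ∈ s, Nice (g i)) :
    Nice (fun t y => ∏ i ∈ s, g i t y) := by
  classical
  induction s using Finset.induction_on with
  | empty => simpa using const (X := X) (a := fun _ : τ => (1 : ℝ)) (M := 1) (by simp)
  | insert a s ha ih =>
    simp only [prod_insert ha]
    exact (h a (mem_insert_self _ _)).mul (ih fun i hi => h i (mem_insert_of_mem hi))

lemma comp_clm {Z : Type*} [NormedAddCommGroup Z] [NormedSpace ℝ Z] {g : τ → X → Y} (h : Nice g)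
    (l : Z →L[ℝ] X) : Nice (fun t z => g t (l z)) := by
  obtain ⟨M, A, B, h1, h2, h3, h⟩ := h
  exact ⟨_, _, _, h1, by positivity, by positivity, fun t => (h t).comp_clm l⟩

lemma sig (a : τ → ℝ) : Nice (fun t (u : ℝ) => sigmoid (u + a t)) :=
  ⟨1, 1, 1, zero_le_one, zero_le_one, zero_le_one, fun t => C11.sig (a t)⟩

lemma pi {E : Type*} [Fintype E] {v : τ → X → E → ℝ} (h : ∀ i, Nice (fun t y => v t y i)) :
    Nice v := by
  choose M A B h1 h2 h3 h using h
  refine ⟨∑ i, M i, ∑ i, A i, ∑ i, B i, sum_nonneg fun i _ => h1 i, sum_nonneg fun i _ => h2 i,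
    sum_nonneg fun i _ => h3 i, fun t => C11.pi (sum_nonneg fun i _ => h1 i)
      (sum_nonneg fun i _ => h2 i) (sum_nonneg fun i _ => h3 i) fun i => (h i t).mono ?_ ?_ ?_⟩
  · exact single_le_sum (fun i _ => h1 i) (mem_univ i)
  · exact single_le_sum (fun i _ => h2 i) (mem_univ i)
  · exact single_le_sum (fun i _ => h3 i) (mem_univ i)

end Nice

lemma nice_cnd (T : ℝ) : Nice (fun (t : Set.Icc (0 : ℝ) T) (u : ℝ) => cnd t u) := by
  have hs : Nice (fun (_ : Set.Icc (0 : ℝ) T) (u : ℝ) => sigmoid u) := by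
    simpa using Nice.sig (fun _ : Set.Icc (0 : ℝ) T => 0)
  have he : Nice (fun (t : Set.Icc (0 : ℝ) T) (_ : ℝ) => exp t) :=
    Nice.const (M := exp T) fun t => by
      rw [abs_of_pos (exp_pos _)]; exact exp_le_exp.2 t.2.2
  have h1 : Nice (fun (_ : Set.Icc (0 : ℝ) T) (_ : ℝ) => (1 : ℝ)) :=
    Nice.const (M := 1) fun _ => by simp
  have hi := (hs.add (he.mul (h1.sub hs))).inv one_pos fun t y => by
    have := one_le_exp t.2.1
    have := sigmoid_lt_one y
    nlinarith
  simp only [cnd_eq]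
  exact he.mul (hi.mul hi)

end Vale.Agent.P143
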