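import Mathlib

/-! Spanning forests of a finite edge set, and the edge exchange lemma. -/

namespace Vale.Agent.P143

open SimpleGraph Finset
open scoped Classical

variable {V : Type*}

/-- reachability using edges of `F` -/
def R (F : Finset (Sym2 V)) (u v : V) : Prop := (fromEdgeSet (F : Set (Sym2 V))).Reachable u v

/-- acyclicity of the edge set `F` -/
def Acyc (F : Finset (Sym2 V)) : Prop := (fromEdgeSet (F : Set (Sym2 V))).IsAcyclic

lemma R.refl (F : Finset (Sym2 V)) (u : V) : R F u u := Reachable.refl u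

lemma R.symm {F : Finset (Sym2 V)} {u v : V} (h : R F u v) : R F v u := Reachable.symm h

lemma R.trans {F : Finset (Sym2 V)} {u v w : V} (h : R F u v) (h' : R F v w) : R F u w :=
  Reachable.trans h h'

lemma R.mono {F F' : Finset (Sym2 V)} (hF : F ⊆ F') {u v : V} (h : R F u v) : R F' u v :=
  Reachable.mono (fromEdgeSet_mono (by exact_mod_cast hF)) h

lemma R.of_mem {F : Finset (Sym2 V)} {u v : V} (h : s(u, v) ∈ F) : R F u v := by
  by_cases huv : u = v
  · subst huv; exact R.refl _ _
  · exact Adj.reachable (by simp [fromEdgeSet_adj, h, huv])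

lemma R.induction {F : Finset (Sym2 V)} {a : V} {P : V → Prop} (h0 : P a)
    (hs : ∀ u v, R F a u → s(u, v) ∈ F → u ≠ v → P u → P v) {b : V} (h : R F a b) : P b := by
  unfold R at h
  rw [reachable_iff_reflTransGen] at h
  induction h with
  | refl => exact h0
  | @tail u v h1 h2 ih =>
    rw [fromEdgeSet_adj] at h2
    exact hs u v ((reachable_iff_reflTransGen _ _).2 h1) (by exact_mod_cast h2.1) h2.2 ih

lemma R_insert {F : Finset (Sym2 V)} {a b u v : V} (h : R (insert s(a, b) F) u v) :
    R F u v ∨ (R F u a ∧ R F b v) ∨ (R F u b ∧ R F a v) := by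
  refine R.induction (P := fun v => R F u v ∨ (R F u a ∧ R F b v) ∨ (R F u b ∧ R F a v))
    (Or.inl (R.refl _ _)) ?_ h
  intro x y _ hxy _ ih
  rcases Finset.mem_insert.1 hxy with hxy | hxy
  · rcases Sym2.eq_iff.1 hxy with ⟨rfl, rfl⟩ | ⟨rfl, rfl⟩
    · rcases ih with h | h | h
      · exact Or.inr (Or.inl ⟨h, R.refl _ _⟩)
      · exact Or.inr (Or.inl ⟨h.1, R.refl _ _⟩)
      · exact Or.inl h.1
    · rcases ih with h | h | h
      · exact Or.inr (Or.inr ⟨h, R.refl _ _⟩)
      · exact Or.inl h.1
      · exact Or.inr (Or.inr ⟨h.1, R.refl _ _⟩)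
  · have := R.of_mem hxy
    rcases ih with h | h | h
    · exact Or.inl (h.trans this)
    · exact Or.inr (Or.inl ⟨h.1, h.2.trans this⟩)
    · exact Or.inr (Or.inr ⟨h.1, h.2.trans this⟩)

lemma fromEdgeSet_insert (F : Finset (Sym2 V)) (a b : V) :
    fromEdgeSet ((insert s(a, b) F : Finset (Sym2 V)) : Set (Sym2 V)) =
      fromEdgeSet (F : Set (Sym2 V)) ⊔ edge a b := by
  rw [edge, ← fromEdgeSet_union]
  congr 1
  ext e
  simp [or_comm]

lemma Acyc.mono {F F' : Finset (Sym2 V)} (hF : F ⊆ F') (h : Acyc F') : Acyc F :=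
  IsAcyclic.anti (fromEdgeSet_mono (by exact_mod_cast hF)) h

lemma Acyc.insert {F : Finset (Sym2 V)} {a b : V} (h : Acyc F) (hr : ¬ R F a b) :
    Acyc (insert s(a, b) F) := by
  unfold Acyc
  rw [fromEdgeSet_insert]
  exact IsAcyclic.sup_edge_of_not_reachable hr h

lemma Acyc.not_R {F : Finset (Sym2 V)} {a b : V} (h : Acyc (Insert.insert s(a, b) F))
    (hab : a ≠ b) (hF : s(a, b) ∉ F) : ¬ R F a b := by
  unfold Acyc at h
  rw [fromEdgeSet_insert, isAcyclic_sup_fromEdgeSet_iff] at h
  intro hr
  rcases h.2 hr with h | h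
  · exact hab h
  · rw [fromEdgeSet_adj] at h
    exact hF (by exact_mod_cast h.1)

/-- the spanning forests of the edge set `E` -/
noncomputable def Tr (E : Finset (Sym2 V)) : Finset (Finset (Sym2 V)) :=
  E.powerset.filter (fun T => Acyc T ∧ ∀ u v, s(u, v) ∈ E → R T u v)

lemma mem_Tr {E T : Finset (Sym2 V)} :
    T ∈ Tr E ↔ T ⊆ E ∧ Acyc T ∧ ∀ u v, s(u, v) ∈ E → R T u v := by
  simp [Tr]

lemma Tr_nonempty (E : Finset (Sym2 V)) : (Tr E).Nonempty := by
  obtain ⟨F, hF, hac, hr⟩ := (fromEdgeSet (E : Set (Sym2 V))).exists_isAcyclic_reachable_eq_le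
  have hfe : fromEdgeSet ((E.filter (fun e => e ∈ F.edgeSet) : Finset (Sym2 V)) : Set (Sym2 V))
      = F := by
    ext u v
    simp only [fromEdgeSet_adj, coe_filter, Set.mem_ofPred_eq, mem_edgeSet]
    constructor
    · rintro ⟨⟨_, h⟩, _⟩; exact h
    · intro h
      have := hF h
      rw [fromEdgeSet_adj] at this
      exact ⟨⟨by exact_mod_cast this.1, h⟩, h.ne⟩
  refine ⟨E.filter (fun e => e ∈ F.edgeSet), mem_Tr.2 ⟨filter_subset _ _, ?_, ?_⟩⟩
  · unfold Acyc; rw [hfe]; exact hac
  · intro u v huv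
    unfold R
    rw [hfe, hr]
    exact R.of_mem huv

/-- forests obtained from a spanning forest by deleting the edge `e` -/
def Cut (E : Finset (Sym2 V)) (e : Sym2 V) (F : Finset (Sym2 V)) : Prop :=
  e ∉ F ∧ insert e F ∈ Tr E

lemma Cut.not_R {E F : Finset (Sym2 V)} {a b : V} (h : Cut E s(a, b) F) (hab : a ≠ b) :
    ¬ R F a b := (mem_Tr.1 h.2).2.1.not_R hab h.1

lemma Cut.swap {E F : Finset (Sym2 V)} {a b x y : V} (h : Cut E s(a, b) F) (he : s(x, y) ∈ E)
    (hxy : ¬ R F x y) : Cut E s(x, y) F := by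
  obtain ⟨h1, h2⟩ := h
  obtain ⟨h2, h3, h4⟩ := mem_Tr.1 h2
  have hFE : F ⊆ E := (subset_insert _ _).trans h2
  refine ⟨fun hm => hxy (R.of_mem hm), mem_Tr.2 ⟨insert_subset he hFE,
    (h3.mono (subset_insert _ _)).insert hxy, ?_⟩⟩
  have hs : F ⊆ insert s(x, y) F := subset_insert _ _
  have hxy' : R (insert s(x, y) F) x y := R.of_mem (mem_insert_self _ _)
  have hab : R (insert s(x, y) F) a b := by
    rcases R_insert (h4 x y he) with h | h | h
    · exact absurd h hxy
    · exact ((h.1.mono hs).symm.trans hxy').trans (h.2.mono hs).symm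
    · exact ((h.2.mono hs).trans hxy'.symm).trans (h.1.mono hs)
  intro u v huv
  rcases R_insert (h4 u v huv) with h | h | h
  · exact h.mono hs
  · exact ((h.1.mono hs).trans hab).trans (h.2.mono hs)
  · exact ((h.1.mono hs).trans hab.symm).trans (h.2.mono hs)

lemma sum_Tr_mem (E : Finset (Sym2 V)) (e : Sym2 V) (φ : Finset (Sym2 V) → ℝ) :
    ∑ T ∈ Tr E, (if e ∈ T then φ (T.erase e) else 0) =
      ∑ F ∈ E.powerset, if Cut E e F then φ F else 0 := by
  rw [← Finset.sum_filter, ← Finset.sum_filter]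
  refine Finset.sum_bij' (fun T _ => T.erase e) (fun F _ => insert e F) ?_ ?_ ?_ ?_ ?_
  · intro T hT
    simp only [mem_filter, mem_powerset] at hT ⊢
    refine ⟨(erase_subset _ _).trans (mem_Tr.1 hT.1).1, notMem_erase _ _, ?_⟩
    rw [insert_erase hT.2]; exact hT.1
  · intro F hF
    simp only [mem_filter, mem_powerset] at hF ⊢
    exact ⟨hF.2.2, mem_insert_self _ _⟩
  · intro T hT
    simp only [mem_filter] at hT
    exact insert_erase hT.2
  · intro F hF
    simp only [mem_filter] at hF
    exact erase_insert hF.2.1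
  · intro T _; rfl

/-- bilinear form of one edge -/
def bil (f g : V → ℝ) : Sym2 V → ℝ :=
  Sym2.lift ⟨fun x y => (f x - f y) * (g x - g y), fun x y => by ring⟩

@[simp] lemma bil_mk (f g : V → ℝ) (x y : V) :
    bil f g s(x, y) = (f x - f y) * (g x - g y) := rfl

/-- indicator of the component of `a` -/
noncomputable def comp (F : Finset (Sym2 V)) (a : V) : V → ℝ := fun x => if R F a x then 1 else 0

lemma path_sum {T : Finset (Sym2 V)} (hT : Acyc T) (g : V → ℝ) {a b : V} (h : R T a b) :
    ∑ e ∈ T, (if R (T.erase e) a b then 0 else bil (comp (T.erase e) a) g e) = g a - g b := by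
  refine R.induction (P := fun b => ∑ e ∈ T,
    (if R (T.erase e) a b then 0 else bil (comp (T.erase e) a) g e) = g a - g b) ?_ ?_ h
  · simp [R.refl]
  · intro u v hu huv hne ih
    rw [← add_sum_erase _ _ huv] at ih ⊢
    have hrest : ∑ e ∈ T.erase s(u, v),
        (if R (T.erase e) a v then 0 else bil (comp (T.erase e) a) g e) =
        ∑ e ∈ T.erase s(u, v),
        (if R (T.erase e) a u then 0 else bil (comp (T.erase e) a) g e) := by
      refine sum_congr rfl fun e he => ?_
      have : R (T.erase e) u v :=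
        R.of_mem (mem_erase.2 ⟨(ne_of_mem_erase he).symm, huv⟩)
      have hiff : R (T.erase e) a v ↔ R (T.erase e) a u :=
        ⟨fun h => h.trans this.symm, fun h => h.trans this⟩
      simp only [hiff]
    rw [hrest]
    have hins : insert s(u, v) (T.erase s(u, v)) = T := insert_erase huv
    have hn : ¬ R (T.erase s(u, v)) u v :=
      Acyc.not_R (by rw [hins]; exact hT) hne (notMem_erase _ _)
    have hor : R (T.erase s(u, v)) a u ∨ R (T.erase s(u, v)) a v := by
      rw [← hins] at hu
      rcases R_insert hu with h | h | h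
      · exact Or.inl h
      · exact Or.inl h.1
      · exact Or.inr h.1
    rcases hor with h1 | h1
    · have h2 : ¬ R (T.erase s(u, v)) a v := fun h => hn (h1.symm.trans h)
      simp only [h1, h2, if_true, if_false, bil_mk, comp] at ih ⊢
      linarith
    · have h2 : ¬ R (T.erase s(u, v)) a u := fun h => hn (h.symm.trans h1)
      simp only [h1, h2, if_true, if_false, bil_mk, comp] at ih ⊢
      linarith

/-- weight of an edge set -/
def wt (c : Sym2 V → ℝ) (T : Finset (Sym2 V)) : ℝ := ∏ e ∈ T, c e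

/-- unnormalised voltage -/
noncomputable def volt (E : Finset (Sym2 V)) (c : Sym2 V → ℝ) (a b : V) : V → ℝ :=
  fun x => ∑ F ∈ E.powerset, if Cut E s(a, b) F then wt c F * comp F a x else 0

lemma bil_volt (E : Finset (Sym2 V)) (c : Sym2 V → ℝ) (a b : V) (g : V → ℝ) (e : Sym2 V) :
    bil (volt E c a b) g e =
      ∑ F ∈ E.powerset, if Cut E s(a, b) F then wt c F * bil (comp F a) g e else 0 := by
  induction e using Sym2.ind with
  | h x y =>
    simp only [bil_mk, volt]
    rw [← sum_sub_distrib, sum_mul]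
    refine sum_congr rfl fun F _ => ?_
    split_ifs <;> ring

theorem kirchhoff_bil {E : Finset (Sym2 V)} (hE : ∀ e ∈ E, ¬ e.IsDiag) (c : Sym2 V → ℝ)
    {a b : V} (hab : s(a, b) ∈ E) (g : V → ℝ) :
    ∑ e ∈ E, c e * bil (volt E c a b) g e = (∑ T ∈ Tr E, wt c T) * (g a - g b) := by
  have hne : a ≠ b := fun h => hE _ hab (by simp [h])
  have key : ∀ e ∈ E, c e * bil (volt E c a b) g e = ∑ T ∈ Tr E, if e ∈ T then
      wt c T * (if R (T.erase e) a b then 0 else bil (comp (T.erase e) a) g e) else 0 := by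
    intro e he
    have h1 : ∀ T ∈ Tr E, (if e ∈ T then
        wt c T * (if R (T.erase e) a b then 0 else bil (comp (T.erase e) a) g e) else 0) =
        if e ∈ T then (fun F => c e * wt c F *
          (if R F a b then 0 else bil (comp F a) g e)) (T.erase e) else 0 := by
      intro T _
      split_ifs with h h'
      · simp [h']
      · simp only [h', if_false, wt]
        rw [mul_prod_erase _ _ h]
      · rfl
    rw [sum_congr rfl h1, sum_Tr_mem E e (fun F => c e * wt c F *
          (if R F a b then 0 else bil (comp F a) g e)), bil_volt, mul_sum]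
    refine sum_congr rfl fun F _ => ?_
    induction e using Sym2.ind with
    | h x y =>
      by_cases hxy : R F x y
      · have : comp F a x = comp F a y := by
          have hiff : R F a x ↔ R F a y := ⟨fun h => h.trans hxy, fun h => h.trans hxy.symm⟩
          simp only [comp, hiff]
        simp [this]
      · by_cases h1 : Cut E s(a, b) F
        · simp only [h1, h1.swap he hxy, h1.not_R hne, if_true, if_false]
          ring
        · simp only [h1, if_false, mul_zero]
          split_ifs with h2 h3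
          · simp
          · exact absurd (h2.swap hab h3) h1
          · rfl
  rw [sum_congr rfl key, sum_comm, sum_mul]
  refine sum_congr rfl fun T hT => ?_
  obtain ⟨h1, h2, h3⟩ := mem_Tr.1 hT
  rw [← sum_filter, filter_mem_eq_inter, inter_eq_right.2 h1, ← mul_sum,
    path_sum h2 g (h3 a b hab)]

end Vale.Agent.P143
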